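import Mathlib

open MeasureTheory Set Metric Topology

namespace Vale.Agent.H26.Brouwer

variable {E : Type*} [NormedAddCommGroup E] [InnerProductSpace ℝ E] [FiniteDimensional ℝ E]

/-- the determinant of `1 + t A` is a polynomial in `t` of degree at most the dimension -/
lemma det_poly (A : E →L[ℝ] E) : ∃ p : Polynomial ℝ, p.natDegree ≤ Module.finrank ℝ E ∧
    ∀ t : ℝ, p.eval t = (ContinuousLinearMap.id ℝ E + t • A).det := by
  classical
  let b := Module.finBasis ℝ E
  let M := LinearMap.toMatrix b b (A : E →ₗ[ℝ] E)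
  refine ⟨Matrix.det ((Polynomial.X : Polynomial ℝ) • M.map Polynomial.C +
    (1 : Matrix _ _ ℝ).map Polynomial.C), ?_, ?_⟩
  · simpa using Polynomial.natDegree_det_X_add_C_le M 1
  · intro t
    have h1 : (ContinuousLinearMap.id ℝ E + t • A).det =
        Matrix.det (1 + t • M) := by
      rw [ContinuousLinearMap.det, ← LinearMap.det_toMatrix b]
      congr 1
      have : ((ContinuousLinearMap.id ℝ E + t • A : E →L[ℝ] E) : E →ₗ[ℝ] E)
        = LinearMap.id + t • (A : E →ₗ[ℝ] E) := by
        ext x; simp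
      rw [this, map_add, map_smul, LinearMap.toMatrix_id]
    rw [h1, ← Polynomial.coe_evalRingHom, RingHom.map_det]
    congr 1
    ext i j
    simp [Matrix.one_apply, add_comm]
    split_ifs <;> simp [mul_comm]

/-- interpolation: the value at `1` of a polynomial of degree `≤ d` in terms of values at
small nodes -/
lemma interp (d : ℕ) (δ : ℝ) (hδ : 0 < δ) : ∃ (v : Fin (d + 1) → ℝ) (c : Fin (d + 1) → ℝ),
    (∀ i, 0 ≤ v i ∧ v i < δ) ∧ ∑ i, c i = 1 ∧
    ∀ p : Polynomial ℝ, p.natDegree ≤ d → p.eval 1 = ∑ i, c i * p.eval (v i) := by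
  classical
  let v : Fin (d + 1) → ℝ := fun i => δ * (i : ℝ) / (d + 1)
  have hinj : Function.Injective v := by
    intro i j hij
    have h1 : δ * (i : ℝ) = δ * (j : ℝ) := by
      have : (d + 1 : ℝ) ≠ 0 := by positivity
      simpa [v, div_left_inj' this] using hij
    have h2 : (i : ℝ) = (j : ℝ) := mul_left_cancel₀ hδ.ne' h1
    exact Fin.ext (by exact_mod_cast h2)
  let c : Fin (d + 1) → ℝ := fun i => (Lagrange.basis Finset.univ v i).eval 1
  have key : ∀ p : Polynomial ℝ, p.natDegree ≤ d → p.eval 1 = ∑ i, c i * p.eval (v i) := by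
    intro p hp
    have h1 : p.degree < (Finset.univ : Finset (Fin (d + 1))).card := by
      rw [Finset.card_fin]
      calc p.degree ≤ p.natDegree := Polynomial.degree_le_natDegree
        _ ≤ d := by exact_mod_cast hp
        _ < ((d + 1 : ℕ) : WithBot ℕ) := by exact_mod_cast Nat.lt_succ_self d
    have h2 := Lagrange.eq_interpolate (s := Finset.univ) (v := v) hinj.injOn h1
    conv_lhs => rw [h2]
    rw [Lagrange.interpolate_apply, Polynomial.eval_finsetSum]
    refine Finset.sum_congr rfl fun i _ => ?_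
    simp [c, mul_comm]
  refine ⟨v, c, ?_, ?_, key⟩
  · intro i
    have h0 : (0 : ℝ) < d + 1 := by positivity
    constructor
    · positivity
    · have : (i : ℝ) < d + 1 := by exact_mod_cast i.2
      rw [div_lt_iff₀ h0]
      exact mul_lt_mul_of_pos_left this hδ
  · have := key 1 (by simp)
    simpa using this.symm


omit [FiniteDimensional ℝ E] in
/-- a Lipschitz field on the ball vanishing on the sphere extends by zero -/
lemma ext_lip (g : E → E) (C : ℝ) (hC0 : 0 ≤ C)
    (hlip : ∀ x ∈ closedBall (0 : E) 1, ∀ y ∈ closedBall (0 : E) 1, ‖g x - g y‖ ≤ C * ‖x - y‖)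
    (h0 : ∀ x, ‖x‖ = 1 → g x = 0) (x y : E) :
    ‖(closedBall (0 : E) 1).indicator g x - (closedBall (0 : E) 1).indicator g y‖
      ≤ C * ‖x - y‖ := by
  classical
  have key : ∀ x y : E, x ∈ closedBall (0 : E) 1 → y ∉ closedBall (0 : E) 1 →
      ‖g x‖ ≤ C * ‖x - y‖ := by
    intro x y hx hy
    have hcont : ContinuousOn (fun s : ℝ => ‖x + s • (y - x)‖) (Icc 0 1) := by
      apply Continuous.continuousOn
      fun_prop
    have hx' : ‖x‖ ≤ 1 := by simpa using hx
    have hy' : 1 < ‖y‖ := by simpa using hy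
    obtain ⟨s, hs, hs1⟩ := intermediate_value_Icc (zero_le_one' ℝ) hcont
      (show (1 : ℝ) ∈ Icc _ _ by constructor <;> simp [hx', hy'.le])
    have hs1' : ‖x + s • (y - x)‖ = 1 := hs1
    have h1 := hlip x hx (x + s • (y - x)) (by simp [hs1'])
    rw [h0 _ hs1', sub_zero] at h1
    refine h1.trans (mul_le_mul_of_nonneg_left ?_ hC0)
    have : x - (x + s • (y - x)) = s • (x - y) := by module
    rw [this, norm_smul, Real.norm_of_nonneg hs.1]
    exact mul_le_of_le_one_left (norm_nonneg _) hs.2
  by_cases hx : x ∈ closedBall (0 : E) 1 <;> by_cases hy : y ∈ closedBall (0 : E) 1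
  · rw [indicator_of_mem hx, indicator_of_mem hy]
    exact hlip x hx y hy
  · rw [indicator_of_mem hx, indicator_of_notMem hy, sub_zero]
    exact key x y hx hy
  · rw [indicator_of_mem hy, indicator_of_notMem hx, zero_sub, norm_neg, norm_sub_rev x y]
    exact key y x hy hx
  · rw [indicator_of_notMem hx, indicator_of_notMem hy, sub_zero, norm_zero]
    positivity

/-- a small Lipschitz perturbation of the identity, fixing the sphere, maps the ball onto it -/
lemma surj (g : E → E) (C : ℝ) (hC0 : 0 ≤ C)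
    (hlip : ∀ x ∈ closedBall (0 : E) 1, ∀ y ∈ closedBall (0 : E) 1, ‖g x - g y‖ ≤ C * ‖x - y‖)
    (h0 : ∀ x, ‖x‖ = 1 → g x = 0) (t : ℝ) (ht : 0 ≤ t) (htC : t * C < 1) (y : E)
    (hy : y ∈ closedBall (0 : E) 1) : ∃ x ∈ closedBall (0 : E) 1, x + t • g x = y := by
  classical
  let G := (closedBall (0 : E) 1).indicator g
  let T : E → E := fun x => y - t • G x
  have hT : ContractingWith (Real.toNNReal (t * C)) T := by
    refine ⟨?_, ?_⟩
    · rw [← NNReal.coe_lt_coe, Real.coe_toNNReal _ (by positivity)]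
      simpa using htC
    · refine LipschitzWith.of_dist_le_mul fun x z => ?_
      rw [dist_eq_norm, dist_eq_norm, Real.coe_toNNReal _ (by positivity)]
      have : T x - T z = t • (G z - G x) := by simp only [T]; module
      rw [this, norm_smul, Real.norm_of_nonneg ht, norm_sub_rev, mul_assoc]
      exact mul_le_mul_of_nonneg_left (ext_lip g C hC0 hlip h0 x z) ht
  have hfix := hT.fixedPoint_isFixedPt
  set x := ContractingWith.fixedPoint T hT
  have hx : y - t • G x = x := hfix
  by_cases hxB : x ∈ closedBall (0 : E) 1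
  · refine ⟨x, hxB, ?_⟩
    have : G x = g x := indicator_of_mem hxB _
    rw [this] at hx
    exact (sub_eq_iff_eq_add.1 hx).symm
  · exfalso
    have : G x = 0 := indicator_of_notMem hxB _
    rw [this, smul_zero, sub_zero] at hx
    exact hxB (hx ▸ hy)

/-- there is no `C¹` retraction of the unit ball onto the unit sphere -/
theorem no_retraction (r : E → E) (hr : ∀ x ∈ closedBall (0 : E) 1, ContDiffAt ℝ 1 r x)
    (hn : ∀ x ∈ closedBall (0 : E) 1, ‖r x‖ = 1) (hid : ∀ x, ‖x‖ = 1 → r x = x) : False := by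
  classical
  let _ : MeasurableSpace E := borel E
  have _ : BorelSpace E := ⟨rfl⟩
  set B := closedBall (0 : E) 1 with hB
  let g : E → E := fun x => r x - x
  let g' : E → E →L[ℝ] E := fun x => fderiv ℝ r x - ContinuousLinearMap.id ℝ E
  have hg : ∀ x ∈ B, HasFDerivAt g (g' x) x := fun x hx =>
    ((hr x hx).differentiableAt one_ne_zero).hasFDerivAt.sub (hasFDerivAt_id x)
  have hg'c : ContinuousOn g' B := fun x hx =>
    (((hr x hx).fderiv_right (m := 0) (by simp)).continuousAt.sub
      continuousAt_const).continuousWithinAt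
  have hBc : IsCompact B := isCompact_closedBall _ _
  have h0B : (0 : E) ∈ B := by simp [B]
  obtain ⟨C, hC⟩ := hBc.exists_bound_of_continuousOn hg'c
  have hC0 : 0 ≤ C := (norm_nonneg _).trans (hC 0 h0B)
  have hlip : ∀ x ∈ B, ∀ y ∈ B, ‖g x - g y‖ ≤ C * ‖x - y‖ := fun x hx y hy =>
    (convex_closedBall (0 : E) 1).norm_image_sub_le_of_norm_hasFDerivWithin_le
      (fun z hz => (hg z hz).hasFDerivWithinAt) hC hy hx
  have hg0 : ∀ x, ‖x‖ = 1 → g x = 0 := fun x hx => by simp [g, hid x hx]
  obtain ⟨δ₁, hδ₁, hdet⟩ : ∃ δ > 0, ∀ A : E →L[ℝ] E, ‖A‖ < δ →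
      0 < (ContinuousLinearMap.id ℝ E + A).det := by
    have h1 : Continuous fun A : E →L[ℝ] E => (ContinuousLinearMap.id ℝ E + A).det :=
      ContinuousLinearMap.continuous_det.comp (continuous_const.add continuous_id)
    have h2 : 0 < (fun A : E →L[ℝ] E => (ContinuousLinearMap.id ℝ E + A).det) 0 := by
      simp [ContinuousLinearMap.det]
    have h3 := (h1.tendsto 0).eventually (lt_mem_nhds h2)
    obtain ⟨δ, hδ, h4⟩ := Metric.eventually_nhds_iff.1 h3
    exact ⟨δ, hδ, fun A hA => h4 (by simpa using hA)⟩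
  obtain ⟨δ, hδ, hδC, hδ1⟩ : ∃ δ > 0, (∀ t, 0 ≤ t → t < δ → t * C < min δ₁ 1) ∧ δ ≤ 1 := by
    refine ⟨min δ₁ 1 / (C + 1), by positivity, ?_, ?_⟩
    · intro t ht0 ht
      rw [lt_div_iff₀ (by positivity)] at ht
      nlinarith
    · rw [div_le_one (by positivity)]
      exact (min_le_right _ _).trans (by linarith)
  have key : ∀ t, 0 ≤ t → t < δ →
      ∫ x in B, (ContinuousLinearMap.id ℝ E + t • g' x).det ∂(MeasureTheory.Measure.addHaar : Measure E)
        = (MeasureTheory.Measure.addHaar : Measure E).real B := by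
    intro t ht0 ht
    have htC := hδC t ht0 ht
    have htC1 : t * C < 1 := htC.trans_le (min_le_right _ _)
    have htC2 : t * C < δ₁ := htC.trans_le (min_le_left _ _)
    have hinj : InjOn (fun x => x + t • g x) B := by
      intro x hx y hy hxy
      simp only at hxy
      have h1 : x - y = t • (g y - g x) := by
        have : x + t • g x - (y + t • g y) = 0 := sub_eq_zero.2 hxy
        rw [← sub_eq_zero, ← this]
        module
      have h2 : ‖x - y‖ ≤ t * C * ‖x - y‖ := by
        calc ‖x - y‖ = t * ‖g x - g y‖ := by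
              conv_lhs => rw [h1]
              rw [norm_smul, Real.norm_of_nonneg ht0, norm_sub_rev]
          _ ≤ t * (C * ‖x - y‖) := mul_le_mul_of_nonneg_left (hlip x hx y hy) ht0
          _ = t * C * ‖x - y‖ := by ring
      have h3 : ‖x - y‖ = 0 := by
        by_contra h
        have : 0 < ‖x - y‖ := lt_of_le_of_ne (norm_nonneg _) (Ne.symm h)
        nlinarith
      exact sub_eq_zero.1 (norm_eq_zero.1 h3)
    have himg : (fun x => x + t • g x) '' B = B := by
      apply Subset.antisymm
      · rintro _ ⟨x, hx, rfl⟩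
        have h1 : x + t • g x = (1 - t) • x + t • r x := by simp only [g]; module
        have hrx : r x ∈ B := by simp [B, hn x hx]
        simp only [h1]
        exact (convex_closedBall (0 : E) 1) hx hrx (by linarith) ht0 (by ring)
      · intro y hy
        obtain ⟨x, hx, hxy⟩ := surj g C hC0 hlip hg0 t ht0 htC1 y hy
        exact ⟨x, hx, hxy⟩
    have hder : ∀ x ∈ B, HasFDerivWithinAt (fun x => x + t • g x)
        (ContinuousLinearMap.id ℝ E + t • g' x) B x := fun x hx =>
      ((hasFDerivAt_id x).add ((hg x hx).const_smul t)).hasFDerivWithinAt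
    have hcv := integral_image_eq_integral_abs_det_fderiv_smul
      (MeasureTheory.Measure.addHaar : Measure E) hBc.measurableSet hder hinj (fun _ => (1 : ℝ))
    rw [himg] at hcv
    have h5 : ∫ x in B, (ContinuousLinearMap.id ℝ E + t • g' x).det
          ∂(MeasureTheory.Measure.addHaar : Measure E)
        = ∫ x in B, |(ContinuousLinearMap.id ℝ E + t • g' x).det| • (1 : ℝ)
          ∂(MeasureTheory.Measure.addHaar : Measure E) := by
      refine setIntegral_congr_fun hBc.measurableSet fun x hx => ?_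
      have h6 : ‖t • g' x‖ < δ₁ := by
        rw [norm_smul, Real.norm_of_nonneg ht0]
        exact (mul_le_mul_of_nonneg_left (hC x hx) ht0).trans_lt htC2
      simp only [smul_eq_mul, mul_one]
      rw [abs_of_pos (hdet _ h6)]
    rw [h5, ← hcv]
    simp
  obtain ⟨v, c, hv, hc, hint⟩ := interp (Module.finrank ℝ E) δ hδ
  have hI : ∀ t : ℝ, IntegrableOn (fun x => (ContinuousLinearMap.id ℝ E + t • g' x).det) B
      (MeasureTheory.Measure.addHaar : Measure E) := by
    intro t
    apply ContinuousOn.integrableOn_compact hBc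
    exact ContinuousLinearMap.continuous_det.comp_continuousOn
      (continuousOn_const.add (hg'c.const_smul t))
  have hone : ∫ x in B, (ContinuousLinearMap.id ℝ E + (1 : ℝ) • g' x).det
      ∂(MeasureTheory.Measure.addHaar : Measure E)
        = (MeasureTheory.Measure.addHaar : Measure E).real B := by
    have h1 : ∀ x, (ContinuousLinearMap.id ℝ E + (1 : ℝ) • g' x).det
        = ∑ i, c i * (ContinuousLinearMap.id ℝ E + v i • g' x).det := by
      intro x
      obtain ⟨p, hp, hpe⟩ := det_poly (g' x)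
      have := hint p hp
      rw [hpe] at this
      rw [this]
      exact Finset.sum_congr rfl fun i _ => by rw [hpe]
    simp_rw [h1]
    rw [integral_finsetSum _ (fun i _ => (hI (v i)).const_mul (c i))]
    simp_rw [integral_const_mul]
    rw [Finset.sum_congr rfl (fun i _ => by rw [key (v i) (hv i).1 (hv i).2])]
    rw [← Finset.sum_mul, hc, one_mul]
  have hzero : ∀ x ∈ B, (ContinuousLinearMap.id ℝ E + (1 : ℝ) • g' x).det = 0 := by
    intro x hx
    have hud : UniqueDiffWithinAt ℝ B x := by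
      refine uniqueDiffWithinAt_convex (convex_closedBall (0 : E) 1) ?_ (subset_closure hx)
      exact ⟨0, ball_subset_interior_closedBall (by simp)⟩
    have hr' : HasFDerivAt r (fderiv ℝ r x) x :=
      ((hr x hx).differentiableAt one_ne_zero).hasFDerivAt
    have h1 : HasFDerivWithinAt (fun y => inner ℝ (r y) (r y))
        ((fderivInnerCLM ℝ (r x, r x)).comp ((fderiv ℝ r x).prod (fderiv ℝ r x))) B x :=
      (hr'.inner ℝ hr').hasFDerivWithinAt
    have h2 : HasFDerivWithinAt (fun y => inner ℝ (r y) (r y)) (0 : E →L[ℝ] ℝ) B x := by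
      refine (hasFDerivWithinAt_const (1 : ℝ) x B).congr (fun y hy => ?_) ?_
      · rw [real_inner_self_eq_norm_sq, hn y hy]; norm_num
      · rw [real_inner_self_eq_norm_sq, hn x hx]; norm_num
    have h3 := hud.eq h1 h2
    have h4 : ∀ w, inner ℝ (r x) (fderiv ℝ r x w) = 0 := by
      intro w
      have := congrArg (fun L : E →L[ℝ] ℝ => L w) h3
      simp [fderivInnerCLM_apply] at this
      have hcomm := real_inner_comm (r x) (fderiv ℝ r x w)
      linarith
    have h5 : ContinuousLinearMap.id ℝ E + (1 : ℝ) • g' x = fderiv ℝ r x := by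
      simp [g']
    rw [h5]
    by_contra hne
    have h6 : LinearMap.det ((fderiv ℝ r x : E →L[ℝ] E) : E →ₗ[ℝ] E) ≠ 0 := hne
    let e := LinearMap.equivOfDetNeZero ((fderiv ℝ r x : E →L[ℝ] E) : E →ₗ[ℝ] E) h6
    have h7 : fderiv ℝ r x (e.symm (r x)) = r x := by
      have : e (e.symm (r x)) = r x := e.apply_symm_apply _
      exact this
    have h8 := h4 (e.symm (r x))
    rw [h7, real_inner_self_eq_norm_sq, hn x hx] at h8
    norm_num at h8
  rw [setIntegral_congr_fun hBc.measurableSet hzero] at hone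
  simp only [integral_zero] at hone
  have hpos : 0 < (MeasureTheory.Measure.addHaar : Measure E).real B := by
    rw [measureReal_def]
    refine ENNReal.toReal_pos ?_ hBc.measure_lt_top.ne
    exact (measure_closedBall_pos _ _ one_pos).ne'
  linarith


/-- fixed points of smooth self-maps of the unit ball -/
theorem exists_fixed_smooth (f : E → E) (hf : ContDiff ℝ 1 f)
    (hm : ∀ x ∈ closedBall (0 : E) 1, ‖f x‖ ≤ 1) : ∃ x ∈ closedBall (0 : E) 1, f x = x := by
  by_contra hcon
  push Not at hcon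
  let u : E → E := fun x => x - f x
  have hu : ∀ x ∈ closedBall (0 : E) 1, u x ≠ 0 := fun x hx h =>
    hcon x hx (sub_eq_zero.1 h).symm
  let D : E → ℝ := fun x => (inner ℝ x (u x)) ^ 2 + ‖u x‖ ^ 2 * (1 - ‖x‖ ^ 2)
  let l : E → ℝ := fun x => (-inner ℝ x (u x) + √(D x)) / ‖u x‖ ^ 2
  have hinner : ∀ x ∈ closedBall (0 : E) 1, ‖u x‖ ^ 2 + ‖x‖ ^ 2 - 1 ≤ 2 * inner ℝ x (u x) := by
    intro x hx
    have h1 : f x = x - u x := by simp [u]
    have h2 := hm x hx
    have h3 : ‖f x‖ ^ 2 = ‖x‖ ^ 2 - 2 * inner ℝ x (u x) + ‖u x‖ ^ 2 := by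
      rw [h1, norm_sub_sq_real]
    have h4 : ‖f x‖ ^ 2 ≤ 1 := by nlinarith [norm_nonneg (f x)]
    linarith
  have hD : ∀ x ∈ closedBall (0 : E) 1, 0 < D x := by
    intro x hx
    have hx1 : ‖x‖ ≤ 1 := by simpa using hx
    have hux : 0 < ‖u x‖ := norm_pos_iff.2 (hu x hx)
    rcases hx1.lt_or_eq with h | h
    · have : 0 < 1 - ‖x‖ ^ 2 := by nlinarith [norm_nonneg x]
      have h2 : 0 < ‖u x‖ ^ 2 * (1 - ‖x‖ ^ 2) := by positivity
      have h3 : 0 ≤ (inner ℝ x (u x)) ^ 2 := sq_nonneg _
      simp only [D]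
      linarith
    · have h1 := hinner x hx
      rw [h] at h1
      have h2 : 0 < inner ℝ x (u x) := by nlinarith
      simp only [D, h]
      have : 0 < (inner ℝ x (u x)) ^ 2 := by positivity
      nlinarith
  refine no_retraction (fun x => x + l x • u x) ?_ ?_ ?_
  · intro x hx
    have hcu : ContDiffAt ℝ 1 u x := contDiffAt_id.sub hf.contDiffAt
    have hci : ContDiffAt ℝ 1 (fun x => inner ℝ x (u x)) x := contDiffAt_id.inner ℝ hcu
    have hcn : ContDiffAt ℝ 1 (fun x => ‖u x‖ ^ 2) x := hcu.norm_sq ℝ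
    have hcn' : ContDiffAt ℝ 1 (fun x : E => ‖x‖ ^ 2) x := contDiffAt_id.norm_sq ℝ
    have hcD : ContDiffAt ℝ 1 D x :=
      (hci.pow 2).add (hcn.mul (contDiffAt_const.sub hcn'))
    have hcl : ContDiffAt ℝ 1 l x := by
      refine (hci.neg.add (hcD.sqrt (hD x hx).ne')).div hcn ?_
      have := hu x hx
      positivity
    exact contDiffAt_id.add (hcl.smul hcu)
  · intro x hx
    have hux : 0 < ‖u x‖ := norm_pos_iff.2 (hu x hx)
    have hsq : √(D x) ^ 2 = D x := Real.sq_sqrt (hD x hx).le
    have h1 : ‖x + l x • u x‖ ^ 2 = 1 := by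
      rw [norm_add_sq_real, inner_smul_right, norm_smul, mul_pow, Real.norm_eq_abs, sq_abs]
      have h2 : l x * ‖u x‖ ^ 2 = -inner ℝ x (u x) + √(D x) := by
        simp only [l]
        field_simp
      have h3 : (‖x‖ ^ 2 + 2 * (l x * inner ℝ x (u x)) + l x ^ 2 * ‖u x‖ ^ 2 - 1)
          * ‖u x‖ ^ 2 = 0 := by
        have h4 : (‖x‖ ^ 2 + 2 * (l x * inner ℝ x (u x)) + l x ^ 2 * ‖u x‖ ^ 2 - 1)
          * ‖u x‖ ^ 2 = (‖x‖ ^ 2 - 1) * ‖u x‖ ^ 2
            + 2 * (l x * ‖u x‖ ^ 2) * inner ℝ x (u x) + (l x * ‖u x‖ ^ 2) ^ 2 := by ring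
        rw [h4, h2]
        have h5 : (‖x‖ ^ 2 - 1) * ‖u x‖ ^ 2 + 2 * (-inner ℝ x (u x) + √(D x)) * inner ℝ x (u x)
            + (-inner ℝ x (u x) + √(D x)) ^ 2
            = (‖x‖ ^ 2 - 1) * ‖u x‖ ^ 2 - (inner ℝ x (u x)) ^ 2 + √(D x) ^ 2 := by ring
        rw [h5, hsq]
        simp only [D]
        ring
      have h6 : ‖u x‖ ^ 2 ≠ 0 := by positivity
      have h7 := (mul_eq_zero.1 h3).resolve_right h6
      linarith
    have h2 : 0 ≤ ‖x + l x • u x‖ := norm_nonneg _
    nlinarith
  · intro x hx
    have hxB : x ∈ closedBall (0 : E) 1 := by simp [hx]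
    have h1 := hinner x hxB
    rw [hx] at h1
    have h2 : 0 ≤ inner ℝ x (u x) := by nlinarith [sq_nonneg ‖u x‖]
    have h3 : D x = (inner ℝ x (u x)) ^ 2 := by simp [D, hx]
    have h4 : l x = 0 := by
      simp only [l]
      rw [h3, Real.sqrt_sq h2]
      simp
    simp [h4]

/-- **Brouwer**: unit ball of a finite dimensional inner product space -/
theorem exists_fixed_unit (f : E → E) (hf : ContinuousOn f (closedBall (0 : E) 1))
    (hm : MapsTo f (closedBall (0 : E) 1) (closedBall (0 : E) 1)) :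
    ∃ x ∈ closedBall (0 : E) 1, f x = x := by
  by_contra hcon
  push Not at hcon
  have hBc : IsCompact (closedBall (0 : E) 1) := isCompact_closedBall _ _
  obtain ⟨x0, hx0, hmin⟩ := hBc.exists_isMinOn ⟨0, by simp⟩ (hf.sub continuousOn_id).norm
  have hpos : 0 < ‖f x0 - x0‖ := norm_pos_iff.2 (sub_ne_zero.2 (hcon x0 hx0))
  set ε := ‖f x0 - x0‖ / 3 with hε
  have hε0 : 0 < ε := by positivity
  let T : E → Set E := fun y => {z | y ∈ closedBall (0 : E) 1 → dist z (f y) < ε}
  have hTc : ∀ y, Convex ℝ (T y) := by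
    intro y
    by_cases hy : y ∈ closedBall (0 : E) 1
    · have : T y = ball (f y) ε := by ext z; simp only [T, mem_ofPred_eq, mem_ball]; tauto
      rw [this]; exact convex_ball _ _
    · have : T y = univ := by ext z; simp only [T, mem_ofPred_eq, mem_univ]; tauto
      rw [this]; exact convex_univ
  obtain ⟨g, hg⟩ := exists_contMDiffMap_forall_mem_convex_of_local_const (n := 1)
    (modelWithCornersSelf ℝ E) hTc (by
      intro x
      refine ⟨f x, ?_⟩
      by_cases hx : x ∈ closedBall (0 : E) 1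
      · have h1 := Metric.tendsto_nhds.1 (hf x hx) ε hε0
        have h2 := eventually_nhdsWithin_iff.1 h1
        filter_upwards [h2] with y hy hyB
        rw [dist_comm]
        exact hy hyB
      · have h1 : ∀ᶠ y in 𝓝 x, y ∈ (closedBall (0 : E) 1)ᶜ :=
          isClosed_closedBall.isOpen_compl.mem_nhds hx
        filter_upwards [h1] with y hy hyB
        exact absurd hyB hy)
  have hgs : ContDiff ℝ 1 (fun x => g x) := g.contMDiff.contDiff
  have hg' : ∀ x ∈ closedBall (0 : E) 1, ‖g x - f x‖ < ε := by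
    intro x hx
    rw [← dist_eq_norm]
    exact hg x hx
  obtain ⟨x, hx, hfx⟩ := exists_fixed_smooth (fun x => (1 + ε)⁻¹ • g x) (hgs.const_smul _) (by
    intro x hx
    have h1 := hg' x hx
    have h2 : ‖f x‖ ≤ 1 := by simpa using hm hx
    have h3 : ‖g x‖ ≤ 1 + ε := by
      calc ‖g x‖ = ‖(g x - f x) + f x‖ := by simp
        _ ≤ ‖g x - f x‖ + ‖f x‖ := norm_add_le _ _
        _ ≤ 1 + ε := by linarith
    rw [norm_smul, norm_inv, Real.norm_of_nonneg (by positivity), inv_mul_le_one₀ (by positivity)]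
    exact h3)
  have hx1 : ‖x‖ ≤ 1 := by simpa using hx
  have hgx : g x = (1 + ε) • x := by
    have h1 : (1 + ε) ≠ 0 := by positivity
    rw [← hfx, smul_smul, mul_inv_cancel₀ h1, one_smul]
    simp only [hfx]
  have h1 : ‖f x - x‖ ≤ ‖g x - f x‖ + ‖g x - x‖ := by
    have : f x - x = (g x - x) - (g x - f x) := by abel
    rw [this]
    exact (norm_sub_le _ _).trans (by linarith)
  have h2 : ‖g x - x‖ ≤ ε := by
    have : g x - x = ε • x := by rw [hgx]; module
    rw [this, norm_smul, Real.norm_of_nonneg hε0.le]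
    exact mul_le_of_le_one_right hε0.le hx1
  have h3 : ‖f x0 - x0‖ ≤ ‖f x - x‖ := hmin hx
  have h4 := hg' x hx
  linarith

/-- **Brouwer** for nonempty compact convex sets of a finite dimensional inner product space -/
theorem exists_fixed_convex_inner {K : Set E} (hK : IsCompact K) (hc : Convex ℝ K)
    (hne : K.Nonempty) {f : E → E} (hf : ContinuousOn f K) (hm : MapsTo f K K) :
    ∃ x ∈ K, f x = x := by
  choose p hp hpn using exists_norm_eq_iInf_of_complete_convex hne hK.isComplete hc
  have hpi : ∀ u, ∀ w ∈ K, inner ℝ (u - p u) (w - p u) ≤ 0 := fun u =>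
    (norm_eq_iInf_iff_real_inner_le_zero hc (hp u)).1 (hpn u)
  have hpid : ∀ u ∈ K, p u = u := by
    intro u hu
    have h := hpi u u hu
    rw [real_inner_self_eq_norm_sq] at h
    have h1 : ‖u - p u‖ = 0 := by
      have := sq_nonneg ‖u - p u‖
      nlinarith [norm_nonneg (u - p u), pow_eq_zero_iff (two_ne_zero) |>.1 (le_antisymm h this)]
    exact (sub_eq_zero.1 (norm_eq_zero.1 h1)).symm
  have hlip : ∀ u v, ‖p u - p v‖ ≤ ‖u - v‖ := by
    intro u v
    have h1 := hpi u (p v) (hp v)
    have h2 := hpi v (p u) (hp u)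
    have h3 : ‖p u - p v‖ ^ 2 ≤ inner ℝ (u - v) (p u - p v) := by
      have e1 : inner ℝ (u - v) (p u - p v) = ‖p u - p v‖ ^ 2
          - inner ℝ (u - p u) (p v - p u) - inner ℝ (v - p v) (p u - p v) := by
        rw [← real_inner_self_eq_norm_sq]
        simp only [inner_sub_left, inner_sub_right]
        ring
      linarith
    have h4 := real_inner_le_norm (u - v) (p u - p v)
    rcases eq_or_lt_of_le (norm_nonneg (p u - p v)) with h | h
    · rw [← h]; exact norm_nonneg _
    · by_contra hlt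
      push Not at hlt
      nlinarith
  have hpc : Continuous p := by
    refine LipschitzWith.continuous (K := 1) (LipschitzWith.of_dist_le_mul fun u v => ?_)
    rw [dist_eq_norm, dist_eq_norm]
    simpa using hlip u v
  obtain ⟨R, hR0, hR⟩ : ∃ R : ℝ, 0 < R ∧ ∀ x ∈ K, ‖x‖ ≤ R := by
    obtain ⟨R, hR⟩ := hK.isBounded.exists_norm_le
    exact ⟨max R 1, by positivity, fun x hx => (hR x hx).trans (le_max_left _ _)⟩
  obtain ⟨x, -, hfx⟩ := exists_fixed_unit (fun x => R⁻¹ • f (p (R • x)))
    (by
      apply Continuous.continuousOn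
      have h1 : Continuous fun x => f (p x) := by
        rw [← continuousOn_univ]
        exact hf.comp hpc.continuousOn fun x _ => hp x
      exact (h1.comp (continuous_const_smul R)).const_smul _)
    (by
      intro x _
      have h1 := hR _ (hm (hp (R • x)))
      rw [mem_closedBall_zero_iff, norm_smul, norm_inv, Real.norm_of_nonneg hR0.le,
        inv_mul_le_one₀ hR0]
      exact h1)
  have h1 : f (p (R • x)) = R • x := by
    have h2 : R • (R⁻¹ • f (p (R • x))) = R • x := congrArg (fun z => R • z) hfx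
    rwa [smul_smul, mul_inv_cancel₀ hR0.ne', one_smul] at h2
  have h2 : R • x ∈ K := h1 ▸ hm (hp _)
  refine ⟨R • x, h2, ?_⟩
  conv_rhs => rw [← h1]
  rw [hpid _ h2]

/-- **Brouwer's fixed point theorem**: a continuous self-map of a nonempty compact convex set
of a finite dimensional real normed space has a fixed point -/
theorem exists_fixed_convex {F : Type*} [NormedAddCommGroup F] [NormedSpace ℝ F]
    [FiniteDimensional ℝ F] {K : Set F} (hK : IsCompact K) (hc : Convex ℝ K)
    (hne : K.Nonempty) {f : F → F} (hf : ContinuousOn f K) (hm : MapsTo f K K) :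
    ∃ x ∈ K, f x = x := by
  let e : F ≃L[ℝ] EuclideanSpace ℝ (Fin (Module.finrank ℝ F)) := toEuclidean
  obtain ⟨y, hy, hfy⟩ := exists_fixed_convex_inner (K := e '' K) (f := fun y => e (f (e.symm y)))
    (hK.image e.continuous) (hc.is_linear_image (IsLinearMap.mk e.map_add e.map_smul)) (hne.image _)
    (by
      refine e.continuous.comp_continuousOn (hf.comp e.symm.continuous.continuousOn ?_)
      rintro _ ⟨x, hx, rfl⟩
      simpa using hx)
    (by
      rintro _ ⟨x, hx, rfl⟩
      exact ⟨f x, hm hx, by simp⟩)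
  obtain ⟨x, hx, rfl⟩ := hy
  exact ⟨x, hx, by simpa using hfy⟩

/-- **Brouwer's fixed point theorem** for closed balls of a finite dimensional normed space -/
theorem brouwer_closedBall {F : Type*} [NormedAddCommGroup F] [NormedSpace ℝ F]
    [FiniteDimensional ℝ F] {c : F} {R : ℝ} (hR : 0 ≤ R) {f : F → F}
    (hf : ContinuousOn f (closedBall c R)) (hm : MapsTo f (closedBall c R) (closedBall c R)) :
    ∃ x ∈ closedBall c R, f x = x := by
  have : ProperSpace F := FiniteDimensional.proper_real F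
  exact exists_fixed_convex (isCompact_closedBall _ _) (convex_closedBall _ _)
    ⟨c, by simpa using hR⟩ hf hm

end Vale.Agent.H26.Brouwer
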