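import Vale.Agent.H22.LT2GT
import Vale.Agent.H22.LT2A
import Vale.Agent.H14.LT2G
import Vale.Agent.H25.LT2J

/-!
Row S: the static inequality (uses rows GT, K, G, A, J; swap the import when they land).
-/

open MeasureTheory Matrix Set Filter Topology
open scoped ENNReal ComplexOrder

namespace Vale.LT2

open Vale.LT (trPow)

variable {N : ℕ}

/-! ### linear algebra of `tp` -/

theorem s_tp_add_left (A B X : Mat N) : tp (A + B) X = tp A X + tp B X := by
  simp [tp, add_mul]

theorem s_tp_sub_left (A B X : Mat N) : tp (A - B) X = tp A X - tp B X := by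
  simp [tp, sub_mul]

theorem s_tp_add_right (A B X : Mat N) : tp X (A + B) = tp X A + tp X B := by
  simp [tp, mul_add]

theorem s_tp_sub_right (A B X : Mat N) : tp X (A - B) = tp X A - tp X B := by
  simp [tp, mul_sub]

theorem s_tp_smul_left (c : ℝ) (A X : Mat N) : tp ((c : ℂ) • A) X = c * tp A X := by
  simp [tp]

theorem s_tp_smul_right (c : ℝ) (A X : Mat N) : tp X ((c : ℂ) • A) = c * tp X A := by
  simp [tp]

theorem s_tp_comm (A X : Mat N) : tp A X = tp X A := by
  simp only [tp]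
  rw [Matrix.trace_mul_comm]

theorem s_tp_one (X : Mat N) : tp X 1 = (X.trace).re := by simp [tp]

theorem s_tp_one_one : tp (1 : Mat N) 1 = N := by simp [tp]

theorem s_trace_cfc (f : ℝ → ℝ) {A : Mat N} (hA : A.IsHermitian) :
    ((cfc f A).trace).re = ∑ i, f (hA.eigenvalues i) := by
  rw [hA.cfc_eq, Matrix.IsHermitian.cfc]
  simp only [Unitary.conjStarAlgAut_apply]
  rw [Matrix.trace_mul_cycle]
  simp [Matrix.trace_diagonal]


theorem s_contOn (f : ℝ → ℝ) (A : Mat N) : ContinuousOn f (spectrum ℝ A) :=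
  (Matrix.finite_real_spectrum (A := A)).continuousOn f

theorem s_cfc_mul (f g : ℝ → ℝ) (Z : Mat N) :
    cfc (fun t => f t * g t) Z = cfc f Z * cfc g Z := 
  cfc_mul f g Z (s_contOn _ _) (s_contOn _ _)

theorem s_cfc_comp (g f : ℝ → ℝ) (Z : Mat N) (hZ : Z.IsHermitian)
   (hg : ContinuousOn g (f '' spectrum ℝ Z)) :
    cfc (fun t => g (f t)) Z = cfc g (cfc f Z) := 
  cfc_comp' g f Z hg (s_contOn _ _) hZ

theorem s_cfc_id (Z : Mat N) (hZ : Z.IsHermitian) : cfc (fun t : ℝ => t) Z = Z :=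
  cfc_id' ℝ Z hZ

theorem s_cfc_const (l : ℝ) (Z : Mat N) (hZ : Z.IsHermitian) : cfc (fun _ : ℝ => l) Z = (l : ℂ) • 1 := by
  have h : cfc (fun _ : ℝ => l) Z = algebraMap ℝ (Mat N) l := cfc_const l Z hZ
  rw [h, Algebra.algebraMap_eq_smul_one]
  ext i j; simp

theorem s_cfc_add (f g : ℝ → ℝ) (Z : Mat N) :
    cfc (fun t => f t + g t) Z = cfc f Z + cfc g Z := 
  cfc_add Z f g (s_contOn _ _) (s_contOn _ _)

theorem s_cfc_add_const (l : ℝ) (Z : Mat N) (hZ : Z.IsHermitian) : cfc (fun t : ℝ => l + t) Z = (l : ℂ) • 1 + Z := by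
  rw [s_cfc_add, s_cfc_const l Z hZ, s_cfc_id Z hZ]


/-- scalar function in the static inequality -/
noncomputable def sphi (z l : ℝ) : ℝ := (l + z) * Real.log (1 + z / l) - z

/-- step 1: the Golden-Thompson inequality at level `l` -/
theorem s_step1 (K M Z : Mat N) (hK : K.PosDef) (hM : Between K M) (hZ : Z.PosSemidef)
    (l : ℝ) (hl : 0 < l) :
    tp (Dl K M l) Z + l * tp (Dl K M l) 1
      ≤ ∑ j, sphi (hZ.isHermitian.eigenvalues j) l + tp (K * K - M * M) 1 := by
  obtain ⟨hA, hB⟩ := Kl_posDef K M hK hM l hl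
  set Y : Mat N := (l : ℂ) • 1 + Z with hYdef
  have hlC : (0 : ℂ) < (l : ℂ) := by exact_mod_cast hl
  have hY : Y.PosDef := (Matrix.PosDef.one.smul hlC).add_posSemidef hZ
  have hgt := gt_dual (Kl K l + M) (Kl K l - M) Y hA hB hY
  have hAB : tp (Kl K l + M) (Kl K l - M) = tp (K * K - M * M) 1 + l * N := by
    have h1 : (Kl K l + M) * (Kl K l - M)
        = Kl K l * Kl K l - Kl K l * M + M * Kl K l - M * M := by
      noncomm_ring
    rw [Kl_sq K hK l hl.le] at h1
    simp only [tp]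
    rw [h1]
    simp only [Matrix.trace_sub, Matrix.trace_add, Matrix.trace_smul, Matrix.trace_one, mul_one]
    rw [Matrix.trace_mul_comm (Kl K l) M]
    simp
    ring
  have hLD : Ll K M l = Dl K M l + ((Real.log l : ℝ) : ℂ) • 1 := by
    simp [Dl]
  have hL : tp Y (cfc Real.log (Kl K l + M) + cfc Real.log (Kl K l - M))
      = tp (Dl K M l) Z + l * tp (Dl K M l) 1 + Real.log l * (Y.trace).re := by
    have : cfc Real.log (Kl K l + M) + cfc Real.log (Kl K l - M) = Ll K M l := rfl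
    rw [this, hLD, s_tp_add_right, s_tp_smul_right, s_tp_one]
    rw [s_tp_comm Y, hYdef, s_tp_add_right, s_tp_smul_right]
    ring
  -- functional calculus of `Y`
  have hYc : Y = cfc (fun t : ℝ => l + t) Z := by
    rw [s_cfc_add_const l Z hZ.isHermitian]
  have hlogY : cfc Real.log Y = cfc (fun t : ℝ => Real.log (l + t)) Z := by
    rw [hYc, ← s_cfc_comp Real.log (fun t : ℝ => l + t) Z hZ.isHermitian ?_]
    refine Real.continuousOn_log.mono ?_
    rintro _ ⟨t, ht, rfl⟩
    have := spectrum_nonneg_of_posSemidef hZ t ht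
    simp only [mem_compl_iff, mem_singleton_iff]
    exact ne_of_gt (by linarith)
  have htrY : (Y.trace).re = ∑ j, (l + hZ.isHermitian.eigenvalues j) := by
    rw [hYc, s_trace_cfc _ hZ.isHermitian]
  have hYlY : tp Y (cfc Real.log Y)
      = ∑ j, (l + hZ.isHermitian.eigenvalues j) * Real.log (l + hZ.isHermitian.eigenvalues j) := by
    rw [hlogY]
    simp only [tp]
    conv_lhs => rw [hYc]
    rw [← s_cfc_mul (fun t : ℝ => l + t) (fun t : ℝ => Real.log (l + t)) Z,
      s_trace_cfc _ hZ.isHermitian]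
  rw [hL, hAB, hYlY] at hgt
  have hsum : ∑ j, sphi (hZ.isHermitian.eigenvalues j) l
      = ∑ j, (l + hZ.isHermitian.eigenvalues j) * Real.log (l + hZ.isHermitian.eigenvalues j)
        - Real.log l * (Y.trace).re - (Y.trace).re + l * N := by
    rw [htrY, Finset.mul_sum]
    have hN : l * N = ∑ _j : Fin N, l := by simp [mul_comm]
    rw [hN, ← Finset.sum_sub_distrib, ← Finset.sum_sub_distrib, ← Finset.sum_add_distrib]
    refine Finset.sum_congr rfl fun j _ => ?_
    have hz := hZ.eigenvalues_nonneg j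
    set z := hZ.isHermitian.eigenvalues j
    have h1 : 1 + z / l = (l + z) / l := by field_simp
    simp only [sphi]
    rw [h1, Real.log_div (by positivity) hl.ne']
    ring
  linarith

/-- the boundary function -/
noncomputable def sB (α : ℝ) (K M : Mat N) (l : ℝ) : ℝ :=
  l ^ α * tp (Dl K M l) (K * K - M * M) + l ^ (α + 1) * tp (Dl K M l) 1
    - l ^ α * tp (K * K - M * M) 1

/-- the integrand -/
noncomputable def sh (α : ℝ) (K M Z : Mat N) (hZ : Z.PosSemidef) (l : ℝ) : ℝ :=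
  (∑ j, (1 + α) * (l ^ (α - 1) * sphi (hZ.isHermitian.eigenvalues j) l))
    - (1 + α) * (l ^ (α - 1) * tp (Dl K M l) Z)
    + α * (l ^ (α - 1) * tp (Dl K M l) (K * K - M * M))

theorem s_step2 (α : ℝ) (h0 : 0 < α) (K M Z : Mat N) (hK : K.PosDef) (hM : Between K M)
    (hZ : Z.PosSemidef) (l : ℝ) (hl : 0 < l) :
    ∃ d, HasDerivAt (sB α K M) d l ∧ d ≤ sh α K M Z hZ l := by
  obtain ⟨G, hG, hGle⟩ := exists_G K M hK hM l hl
  have hD : ∀ X : Mat N, HasDerivAt (fun s => tp (Dl K M s) X)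
      (tp G X - l⁻¹ * tp 1 X) l := by
    intro X
    have h1 : (fun s => tp (Dl K M s) X) = fun s => tp (Ll K M s) X - Real.log s * tp 1 X := by
      funext s
      rw [Dl, s_tp_sub_left, s_tp_smul_left]
    rw [h1]
    exact (hG X).sub ((Real.hasDerivAt_log hl.ne').mul_const _)
  set E := K * K - M * M with hE
  have hα : HasDerivAt (fun s : ℝ => s ^ α) (α * l ^ (α - 1)) l :=
    Real.hasDerivAt_rpow_const (Or.inl hl.ne')
  have hα1 : HasDerivAt (fun s : ℝ => s ^ (α + 1)) ((α + 1) * l ^ α) l := by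
    have := Real.hasDerivAt_rpow_const (x := l) (p := α + 1) (Or.inl hl.ne')
    simpa using this
  refine ⟨_, (((hα.mul (hD E)).add (hα1.mul (hD 1))).sub (hα.mul_const (tp E 1))), ?_⟩
  have hstep := s_step1 K M Z hK hM hZ l hl
  have hpa : l ^ α = l ^ (α - 1) * l := by
    rw [← Real.rpow_add_one hl.ne']; congr 1; ring
  have hpa1 : l ^ (α + 1) = l ^ (α - 1) * l * l := by
    rw [Real.rpow_add_one hl.ne', hpa]
  have hp : 0 < l ^ (α - 1) := Real.rpow_pos_of_pos hl _
  rw [s_tp_add_right, s_tp_smul_right] at hGle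
  have h1E : tp (1 : Mat N) E = tp E 1 := s_tp_comm _ _
  simp only [sh]
  rw [← Finset.mul_sum, ← Finset.mul_sum]
  rw [hpa1, hpa, h1E, s_tp_one_one]
  rw [← hE] at hstep
  set p := l ^ (α - 1)
  set S := ∑ j, sphi (hZ.isHermitian.eigenvalues j) l
  set dZ := tp (Dl K M l) Z
  set dE := tp (Dl K M l) E
  set d1 := tp (Dl K M l) 1
  set e := tp E 1
  have hkey : (1 + α) * (p * S) - (1 + α) * (p * dZ) + α * (p * dE)
      - (α * p * dE + p * l * (tp G E - l⁻¹ * e) + ((α + 1) * (p * l) * d1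
        + p * l * l * (tp G 1 - l⁻¹ * N)) - α * p * e)
      = (1 + α) * p * (S + e - (dZ + l * d1)) + p * l * (N - (l * tp G 1 + tp G E)) := by
    field_simp
    ring
  have h2 : 0 ≤ (1 + α) * p * (S + e - (dZ + l * d1)) :=
    mul_nonneg (by positivity) (by linarith)
  have h3 : 0 ≤ p * l * (N - (l * tp G 1 + tp G E)) :=
    mul_nonneg (by positivity) (by linarith)
  linarith

theorem s_integrable_small (α C : ℝ) (h0 : 0 < α) (g : ℝ → ℝ) (hg : ContinuousOn g (Ioi 0))
    (hC : ∀ l ∈ Ioc (0 : ℝ) 1, |g l| ≤ C * (1 + |Real.log l|)) :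
    IntegrableOn (fun l => l ^ (α - 1) * g l) (Ioc 0 1) := by
  have hC0 : 0 ≤ C := by
    have := hC 1 ⟨one_pos, le_rfl⟩
    simp at this
    exact (abs_nonneg _).trans this
  have h1 : IntegrableOn (fun l : ℝ => C * (l ^ (α - 1) + 2 / α * l ^ (α / 2 - 1))) (Ioc 0 1) := by
    refine Integrable.const_mul (Integrable.add ?_ (Integrable.const_mul ?_ _)) _
    · exact (intervalIntegral.intervalIntegrable_rpow' (by linarith)).1
    · exact (intervalIntegral.intervalIntegrable_rpow' (by linarith)).1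
  refine Integrable.mono' h1 ?_ ?_
  · refine ContinuousOn.aestronglyMeasurable ?_ measurableSet_Ioc
    refine ContinuousOn.mul ?_ (hg.mono fun x hx => hx.1)
    exact fun x hx => (Real.continuousAt_rpow_const x _ (Or.inl hx.1.ne')).continuousWithinAt
  · refine (ae_restrict_iff' measurableSet_Ioc).2 (Eventually.of_forall fun l hl => ?_)
    rw [Real.norm_eq_abs, abs_mul, abs_of_nonneg (Real.rpow_nonneg hl.1.le _)]
    have h2 := hC l hl
    have h3 : |Real.log l| * l ^ (α / 2) ≤ 2 / α := by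
      have := (Real.abs_log_mul_self_rpow_lt l (α / 2) hl.1 hl.2 (by positivity)).le
      rw [abs_mul, abs_of_nonneg (Real.rpow_nonneg hl.1.le _)] at this
      calc _ ≤ 1 / (α / 2) := this
        _ = 2 / α := by field_simp
    have h4 : l ^ (α - 1) * |Real.log l| ≤ 2 / α * l ^ (α / 2 - 1) := by
      have h5 : l ^ (α - 1) = l ^ (α / 2) * l ^ (α / 2 - 1) := by
        rw [← Real.rpow_add hl.1]; congr 1; ring
      rw [h5]
      calc l ^ (α / 2) * l ^ (α / 2 - 1) * |Real.log l|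
          = (|Real.log l| * l ^ (α / 2)) * l ^ (α / 2 - 1) := by ring
        _ ≤ 2 / α * l ^ (α / 2 - 1) :=
          mul_le_mul_of_nonneg_right h3 (Real.rpow_nonneg hl.1.le _)
    calc l ^ (α - 1) * |g l| ≤ l ^ (α - 1) * (C * (1 + |Real.log l|)) :=
          mul_le_mul_of_nonneg_left h2 (Real.rpow_nonneg hl.1.le _)
      _ = C * (l ^ (α - 1) + l ^ (α - 1) * |Real.log l|) := by ring
      _ ≤ C * (l ^ (α - 1) + 2 / α * l ^ (α / 2 - 1)) := by gcongr

theorem s_integrable_large (α C : ℝ) (h1 : α < 1) (g : ℝ → ℝ) (hg : ContinuousOn g (Ioi 0))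
    (hC : ∀ l ∈ Ici (1 : ℝ), |g l| ≤ C / l) :
    IntegrableOn (fun l => l ^ (α - 1) * g l) (Ioi 1) := by
  have h2 : IntegrableOn (fun l : ℝ => C * l ^ (α - 2)) (Ioi 1) :=
    (integrableOn_Ioi_rpow_of_lt (by linarith) one_pos).const_mul _
  refine Integrable.mono' h2 ?_ ?_
  · refine ContinuousOn.aestronglyMeasurable ?_ measurableSet_Ioi
    refine ContinuousOn.mul ?_ (hg.mono fun x (hx : (1 : ℝ) < x) => lt_trans one_pos hx)
    intro x hx
    have hx0 : (0 : ℝ) < x := lt_trans one_pos hx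
    exact (Real.continuousAt_rpow_const x _ (Or.inl hx0.ne')).continuousWithinAt
  · refine (ae_restrict_iff' measurableSet_Ioi).2 (Eventually.of_forall fun l hl => ?_)
    have hl0 : (0 : ℝ) < l := lt_trans one_pos hl
    rw [Real.norm_eq_abs, abs_mul, abs_of_nonneg (Real.rpow_nonneg hl0.le _)]
    have h3 := hC l (le_of_lt (show (1 : ℝ) < l from hl))
    calc l ^ (α - 1) * |g l| ≤ l ^ (α - 1) * (C / l) :=
          mul_le_mul_of_nonneg_left h3 (Real.rpow_nonneg hl0.le _)
      _ = C * l ^ (α - 2) := by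
          have : l ^ (α - 1) = l ^ (α - 2) * l := by
            rw [← Real.rpow_add_one hl0.ne']; congr 1; ring
          rw [this]; field_simp

theorem s_integrable (α : ℝ) (h0 : 0 < α) (h1 : α < 1) (K M : Mat N) (hK : K.PosDef)
    (hM : Between K M) (X : Mat N) :
    IntegrableOn (fun l => l ^ (α - 1) * tp (Dl K M l) X) (Ioi 0) := by
  obtain ⟨C, hC⟩ := Dl_small K M hK hM X
  obtain ⟨C', hC'⟩ := Dl_large K M hK hM X
  have hc := continuousOn_tp_Dl K M hK hM X
  have := (s_integrable_small α C h0 _ hc hC).union (s_integrable_large α C' h1 _ hc hC')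
  rwa [Ioc_union_Ioi_eq_Ioi zero_le_one] at this

theorem s_tendsto_zero (α : ℝ) (h0 : 0 < α) (K M : Mat N) (hK : K.PosDef) (hM : Between K M) :
    Tendsto (sB α K M) (𝓝[>] 0) (𝓝 0) := by
  obtain ⟨C, hC⟩ := Dl_small K M hK hM (K * K - M * M)
  obtain ⟨C', hC'⟩ := Dl_small K M hK hM 1
  have hlog : Tendsto (fun l : ℝ => l ^ α * (1 + |Real.log l|)) (𝓝[>] 0) (𝓝 0) := by
    have h1 : Tendsto (fun l : ℝ => l ^ α) (𝓝[>] 0) (𝓝 0) := by
      have := (Real.continuousAt_rpow_const 0 α (Or.inr h0.le)).tendsto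
      rw [Real.zero_rpow h0.ne'] at this
      exact this.mono_left nhdsWithin_le_nhds
    have h2 := (tendsto_log_mul_rpow_nhdsGT_zero h0).abs
    rw [abs_zero] at h2
    have h3 := h1.add h2
    rw [add_zero] at h3
    refine h3.congr' ?_
    filter_upwards [self_mem_nhdsWithin] with l hl
    rw [abs_mul, abs_of_nonneg (Real.rpow_nonneg (le_of_lt hl) _)]
    ring
  have hzero : Tendsto (fun l : ℝ => l ^ α * |tp (K * K - M * M) 1|) (𝓝[>] 0) (𝓝 0) := by
    have h1 : Tendsto (fun l : ℝ => l ^ α) (𝓝[>] 0) (𝓝 0) := by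
      have := (Real.continuousAt_rpow_const 0 α (Or.inr h0.le)).tendsto
      rw [Real.zero_rpow h0.ne'] at this
      exact this.mono_left nhdsWithin_le_nhds
    simpa using h1.mul_const _
  have hbd : Tendsto (fun l : ℝ => C * (l ^ α * (1 + |Real.log l|)) +
      C' * (l ^ α * (1 + |Real.log l|)) + l ^ α * |tp (K * K - M * M) 1|) (𝓝[>] 0) (𝓝 0) := by
    have := ((hlog.const_mul C).add (hlog.const_mul C')).add hzero
    simpa using this
  refine squeeze_zero_norm' ?_ hbd
  have hev : ∀ᶠ l : ℝ in 𝓝[>] 0, l ∈ Ioc (0 : ℝ) 1 := Ioc_mem_nhdsGT one_pos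
  filter_upwards [hev] with l hl
  have hlα : 0 ≤ l ^ α := Real.rpow_nonneg hl.1.le _
  have hl1 : l ^ (α + 1) ≤ l ^ α :=
    Real.rpow_le_rpow_of_exponent_ge hl.1 hl.2 (by linarith)
  have hC'0 : 0 ≤ C' := by
    have := hC' 1 ⟨one_pos, le_rfl⟩
    simp at this
    exact (abs_nonneg _).trans this
  rw [Real.norm_eq_abs, sB]
  have a1 : |l ^ α * tp (Dl K M l) (K * K - M * M)| ≤ C * (l ^ α * (1 + |Real.log l|)) := by
    rw [abs_mul, abs_of_nonneg hlα]
    calc _ ≤ l ^ α * (C * (1 + |Real.log l|)) := mul_le_mul_of_nonneg_left (hC l hl) hlα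
      _ = _ := by ring
  have a2 : |l ^ (α + 1) * tp (Dl K M l) 1| ≤ C' * (l ^ α * (1 + |Real.log l|)) := by
    rw [abs_mul, abs_of_nonneg (Real.rpow_nonneg hl.1.le _)]
    calc _ ≤ l ^ α * (C' * (1 + |Real.log l|)) :=
          mul_le_mul hl1 (hC' l hl) (abs_nonneg _) hlα
      _ = _ := by ring
  have a3 : |l ^ α * tp (K * K - M * M) 1| ≤ l ^ α * |tp (K * K - M * M) 1| := by
    rw [abs_mul, abs_of_nonneg hlα]
  calc |l ^ α * tp (Dl K M l) (K * K - M * M) + l ^ (α + 1) * tp (Dl K M l) 1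
        - l ^ α * tp (K * K - M * M) 1|
      ≤ |l ^ α * tp (Dl K M l) (K * K - M * M)| + |l ^ (α + 1) * tp (Dl K M l) 1|
        + |l ^ α * tp (K * K - M * M) 1| :=
        (abs_sub _ _).trans (add_le_add_left (abs_add_le _ _) _)
    _ ≤ _ := by linarith

theorem s_lower (α : ℝ) (K M : Mat N) (hK : K.PosDef) (hM : Between K M) :
    ∃ C : ℝ, ∀ l ∈ Ici (1 : ℝ), -(C * l ^ (α - 1)) ≤ sB α K M l := by
  obtain ⟨C, hC⟩ := Dl_large K M hK hM (K * K - M * M)
  obtain ⟨C', hC'⟩ := Dl_trace_large K M hK hM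
  refine ⟨C + C', fun l hl => ?_⟩
  have hl0 : (0 : ℝ) < l := lt_of_lt_of_le one_pos hl
  have h1 := (abs_le.1 (hC l hl)).1
  have h2 := hC' l hl
  have hpa : l ^ α = l ^ (α - 1) * l := by
    rw [← Real.rpow_add_one hl0.ne']; congr 1; ring
  have hpa1 : l ^ (α + 1) = l ^ (α - 1) * l * l := by
    rw [Real.rpow_add_one hl0.ne', hpa]
  have hp : 0 < l ^ (α - 1) := Real.rpow_pos_of_pos hl0 _
  rw [sB, hpa1, hpa]
  set p := l ^ (α - 1)
  have h3 : -C ≤ l * tp (Dl K M l) (K * K - M * M) := by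
    have := mul_le_mul_of_nonneg_left h1 hl0.le
    have e : l * -(C / l) = -C := by field_simp
    rwa [e] at this
  have h4 : -C' ≤ l * (l * tp (Dl K M l) 1 - tp (K * K - M * M) 1) := by
    have h5 : -(C' / l) ≤ l * tp (Dl K M l) 1 - tp (K * K - M * M) 1 := by linarith
    have := mul_le_mul_of_nonneg_left h5 hl0.le
    have e : l * -(C' / l) = -C' := by field_simp
    rwa [e] at this
  have h5 : p * l * tp (Dl K M l) (K * K - M * M) + p * l * l * tp (Dl K M l) 1
      - p * l * tp (K * K - M * M) 1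
      = p * (l * tp (Dl K M l) (K * K - M * M)
        + l * (l * tp (Dl K M l) 1 - tp (K * K - M * M) 1)) := by ring
  rw [h5]
  have h6 : p * (-C + -C') ≤ p * (l * tp (Dl K M l) (K * K - M * M)
        + l * (l * tp (Dl K M l) 1 - tp (K * K - M * M) 1)) :=
    mul_le_mul_of_nonneg_left (by linarith) hp.le
  linarith

/-- **Row S**: the static inequality. -/
theorem static_ineq (α : ℝ) (h0 : 0 < α) (h1 : α < 1) (K M Z : Mat N) (hK : K.PosDef)
    (hM : Between K M) (hZ : Z.PosSemidef) :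
    (1 + α) * Pint α K M Z - α * Pint α K M (K * K - M * M) ≤ Jc α * trPow (1 + α) Z := by
  have hIZ := s_integrable α h0 h1 K M hK hM Z
  have hIE := s_integrable α h0 h1 K M hK hM (K * K - M * M)
  have hJ := fun j => integrableOn_J2 α h0 h1 (hZ.isHermitian.eigenvalues j)
    (hZ.eigenvalues_nonneg j)
  have hIφ : ∀ j, IntegrableOn
      (fun l : ℝ => l ^ (α - 1) * sphi (hZ.isHermitian.eigenvalues j) l) (Ioi 0) :=
    fun j => (hJ j).1
  have hsum : IntegrableOn (fun l : ℝ =>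
      ∑ j, (1 + α) * (l ^ (α - 1) * sphi (hZ.isHermitian.eigenvalues j) l)) (Ioi 0) :=
    integrable_finsetSum _ fun j _ => (hIφ j).const_mul _
  have hIh : IntegrableOn (sh α K M Z hZ) (Ioi 0) :=
    (hsum.sub (hIZ.const_mul (1 + α))).add (hIE.const_mul α)
  have hval : ∫ l in Ioi (0 : ℝ), sh α K M Z hZ l
      = Jc α * trPow (1 + α) Z - (1 + α) * Pint α K M Z
        + α * Pint α K M (K * K - M * M) := by
    simp only [sh]
    have hI1 : IntegrableOn (fun l : ℝ =>
        (∑ j, (1 + α) * (l ^ (α - 1) * sphi (hZ.isHermitian.eigenvalues j) l))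
        - (1 + α) * (l ^ (α - 1) * tp (Dl K M l) Z)) (Ioi 0) :=
      hsum.sub (hIZ.const_mul (1 + α))
    rw [integral_add hI1 (hIE.const_mul α),
      integral_sub hsum (hIZ.const_mul (1 + α)), integral_const_mul, integral_const_mul,
      integral_finsetSum _ fun j _ => (hIφ j).const_mul _]
    have : ∀ j, ∫ l in Ioi (0 : ℝ), (1 + α) *
        (l ^ (α - 1) * sphi (hZ.isHermitian.eigenvalues j) l)
        = Jc α * (hZ.isHermitian.eigenvalues j) ^ (1 + α) := by
      intro j
      have h2 : ∫ l in Ioi (0 : ℝ), l ^ (α - 1) * sphi (hZ.isHermitian.eigenvalues j) l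
        = Jc α * (hZ.isHermitian.eigenvalues j) ^ (1 + α) / (1 + α) := (hJ j).2
      rw [integral_const_mul, h2]
      field_simp
    rw [Finset.sum_congr rfl fun j _ => this j, ← Finset.mul_sum]
    simp only [Pint, trPow]
    rw [dif_pos hZ.isHermitian]
  suffices h : 0 ≤ ∫ l in Ioi (0 : ℝ), sh α K M Z hZ l by linarith
  -- exhaustion by `(1/(n+1), n+1]`
  let s : ℕ → Set ℝ := fun n => Ioc (1 / ((n : ℝ) + 1)) ((n : ℝ) + 1)
  have hsU : ⋃ n, s n = Ioi 0 := by
    ext x
    simp only [s, mem_iUnion, mem_Ioc, mem_Ioi]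
    constructor
    · rintro ⟨n, hn, -⟩
      exact lt_trans (by positivity) hn
    · intro hx
      obtain ⟨n, hn⟩ := exists_nat_gt (max x (1 / x))
      refine ⟨n, ?_, ?_⟩
      · have h2 : 1 / x < (n : ℝ) + 1 := (le_max_right _ _).trans_lt (hn.trans (by linarith))
        rw [div_lt_comm₀ (by positivity) hx]
        exact h2
      · exact ((le_max_left _ _).trans_lt hn).le.trans (by linarith)
  have hmono : Monotone s := by
    intro a b hab
    have hab' : (a : ℝ) ≤ b := by exact_mod_cast hab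
    refine Ioc_subset_Ioc ?_ (by linarith)
    exact one_div_le_one_div_of_le (by positivity) (by linarith)
  have hlim : Tendsto (fun n => ∫ l in s n, sh α K M Z hZ l) atTop
      (𝓝 (∫ l in Ioi (0 : ℝ), sh α K M Z hZ l)) := by
    have := tendsto_setIntegral_of_monotone (μ := volume) (f := sh α K M Z hZ) (s := s)
      (fun n => measurableSet_Ioc) hmono (by rw [hsU]; exact hIh)
    rwa [hsU] at this
  obtain ⟨C, hC⟩ := s_lower α K M hK hM
  have hlow : Tendsto (fun n : ℕ => -(C * ((n : ℝ) + 1) ^ (α - 1)) - sB α K M (1 / ((n : ℝ) + 1)))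
      atTop (𝓝 0) := by
    have hn : Tendsto (fun n : ℕ => (n : ℝ) + 1) atTop atTop :=
      tendsto_atTop_add_const_right _ _ tendsto_natCast_atTop_atTop
    have a1 : Tendsto (fun n : ℕ => ((n : ℝ) + 1) ^ (α - 1)) atTop (𝓝 0) := by
      have := (tendsto_rpow_neg_atTop (y := 1 - α) (by linarith)).comp hn
      have e : -(1 - α) = α - 1 := by ring
      rw [e] at this
      exact this
    have a2 : Tendsto (fun n : ℕ => sB α K M (1 / ((n : ℝ) + 1))) atTop (𝓝 0) := by
      refine (s_tendsto_zero α h0 K M hK hM).comp ?_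
      refine tendsto_nhdsWithin_iff.2 ⟨tendsto_one_div_add_atTop_nhds_zero_nat, ?_⟩
      exact Eventually.of_forall fun n => by
        simp only [mem_Ioi]; positivity
    have := ((a1.const_mul C).neg).sub a2
    simpa using this
  refine le_of_tendsto_of_tendsto' hlow hlim fun n => ?_
  have hn1 : (1 : ℝ) ≤ (n : ℝ) + 1 := by
    have : (0 : ℝ) ≤ n := Nat.cast_nonneg n
    linarith
  have hn0 : (0 : ℝ) < 1 / ((n : ℝ) + 1) := by positivity
  have hle : 1 / ((n : ℝ) + 1) ≤ (n : ℝ) + 1 := by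
    rw [div_le_iff₀ (by positivity)]
    nlinarith
  have hmain : sB α K M ((n : ℝ) + 1) - sB α K M (1 / ((n : ℝ) + 1))
      ≤ ∫ l in (1 / ((n : ℝ) + 1))..((n : ℝ) + 1), sh α K M Z hZ l := by
    refine intervalIntegral.sub_le_integral_of_hasDeriv_right_of_le (g' := fun l => deriv (sB α K M) l)
      hle ?_ ?_ ?_ ?_
    · intro x hx
      obtain ⟨d, hd, -⟩ := s_step2 α h0 K M Z hK hM hZ x (lt_of_lt_of_le hn0 hx.1)
      exact hd.continuousAt.continuousWithinAt
    · intro x hx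
      obtain ⟨d, hd, -⟩ := s_step2 α h0 K M Z hK hM hZ x (lt_trans hn0 hx.1)
      rw [hd.deriv]
      exact hd.hasDerivWithinAt
    · exact hIh.mono_set fun x hx => lt_of_lt_of_le hn0 hx.1
    · intro x hx
      obtain ⟨d, hd, hdle⟩ := s_step2 α h0 K M Z hK hM hZ x (lt_trans hn0 hx.1)
      rw [hd.deriv]
      exact hdle
  rw [intervalIntegral.integral_of_le hle] at hmain
  have := hC ((n : ℝ) + 1) hn1
  exact le_trans (by linarith) hmain

end Vale.LT2
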