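import Mathlib

namespace Vale.Agent.H26.Chernoff

open Finset

set_option linter.unusedSectionVars false

variable {Ω : Type*} [Fintype Ω] [DecidableEq Ω]

/-- Probability of the event `E` for `m` independent samples from the weights `μ`. -/
noncomputable def prob (μ : Ω → ℝ) (m : ℕ) (E : (Fin m → Ω) → Prop) : ℝ := by
  classical exact ∑ ω : Fin m → Ω, if E ω then ∏ i, μ (ω i) else 0

theorem prob_nonneg {μ : Ω → ℝ} (hμ : ∀ x, 0 ≤ μ x) (m : ℕ) (E : (Fin m → Ω) → Prop) :
    0 ≤ prob μ m E := by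
  unfold prob
  apply Finset.sum_nonneg
  intro ω _
  split_ifs
  · exact Finset.prod_nonneg (fun i _ => hμ _)
  · exact le_rfl

theorem sum_prod {f : Ω → ℝ} (m : ℕ) :
    ∑ ω : Fin m → Ω, ∏ i, f (ω i) = (∑ x, f x) ^ m := by
  have := Finset.prod_univ_sum (t := fun _ : Fin m => (Finset.univ : Finset Ω))
    (f := fun _ x => f x)
  simp only [Finset.prod_const, Finset.card_univ, Fintype.card_fin, Fintype.piFinset_univ] at this
  rw [this]

theorem prob_true {μ : Ω → ℝ} (h1 : ∑ x, μ x = 1) (m : ℕ) :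
    prob μ m (fun _ => True) = 1 := by
  unfold prob
  simp only [if_true]
  rw [sum_prod, h1, one_pow]

theorem prob_compl {μ : Ω → ℝ} (h1 : ∑ x, μ x = 1) (m : ℕ) (E : (Fin m → Ω) → Prop) :
    prob μ m E = 1 - prob μ m (fun ω => ¬ E ω) := by
  classical
  have h : prob μ m E + prob μ m (fun ω => ¬ E ω) = 1 := by
    rw [← prob_true h1 m]
    unfold prob
    rw [← Finset.sum_add_distrib]
    apply Finset.sum_congr rfl
    intro ω _
    by_cases hE : E ω <;> simp [hE]
  linarith

theorem prob_mono {μ : Ω → ℝ} (hμ : ∀ x, 0 ≤ μ x) (m : ℕ) {E F : (Fin m → Ω) → Prop}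
    (h : ∀ ω, E ω → F ω) : prob μ m E ≤ prob μ m F := by
  classical
  unfold prob
  apply Finset.sum_le_sum
  intro ω _
  have hn : 0 ≤ ∏ i, μ (ω i) := Finset.prod_nonneg (fun i _ => hμ _)
  by_cases hE : E ω
  · simp [hE, h ω hE]
  · by_cases hF : F ω <;> simp [hE, hF, hn]

theorem prob_or_le {μ : Ω → ℝ} (hμ : ∀ x, 0 ≤ μ x) (m : ℕ) (E F : (Fin m → Ω) → Prop) :
    prob μ m (fun ω => E ω ∨ F ω) ≤ prob μ m E + prob μ m F := by
  classical
  unfold prob
  rw [← Finset.sum_add_distrib]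
  apply Finset.sum_le_sum
  intro ω _
  have hn : 0 ≤ ∏ i, μ (ω i) := Finset.prod_nonneg (fun i _ => hμ _)
  by_cases hE : E ω <;> by_cases hF : F ω <;> simp [hE, hF, hn]

/-- Exponential Markov inequality. -/
theorem prob_le_exp {μ : Ω → ℝ} (hμ : ∀ x, 0 ≤ μ x) (h1 : ∑ x, μ x = 1) (m : ℕ)
    (A : Ω → Prop) [DecidablePred A] (p l c : ℝ) (hp : ∑ x, (if A x then μ x else 0) = p) :
    prob μ m (fun ω => c ≤ l * ((univ.filter (fun i => A (ω i))).card : ℝ)) ≤
      Real.exp (m * (p * (Real.exp l - 1)) - c) := by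
  classical
  have hstep : prob μ m (fun ω => c ≤ l * ((univ.filter (fun i => A (ω i))).card : ℝ)) ≤
      ∑ ω : Fin m → Ω, (∏ i, μ (ω i) * Real.exp (if A (ω i) then l else 0)) * Real.exp (-c) := by
    unfold prob
    apply Finset.sum_le_sum
    intro ω _
    have hn : 0 ≤ ∏ i, μ (ω i) := Finset.prod_nonneg (fun i _ => hμ _)
    have hexp : ∏ i, Real.exp (if A (ω i) then l else 0) =
        Real.exp (l * ((univ.filter (fun i => A (ω i))).card : ℝ)) := by
      rw [← Real.exp_sum, Finset.sum_ite, Finset.sum_const, Finset.sum_const_zero, add_zero,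
        nsmul_eq_mul, mul_comm]
    rw [Finset.prod_mul_distrib, hexp, mul_assoc, ← Real.exp_add]
    split_ifs with h
    · have : 1 ≤ Real.exp (l * ((univ.filter (fun i => A (ω i))).card : ℝ) + -c) := by
        rw [← Real.exp_zero]
        apply Real.exp_le_exp.2
        linarith
      nlinarith
    · exact mul_nonneg hn (Real.exp_pos _).le
  refine hstep.trans ?_
  rw [← Finset.sum_mul]
  have hs : ∑ ω : Fin m → Ω, ∏ i, μ (ω i) * Real.exp (if A (ω i) then l else 0) =
      (∑ x, μ x * Real.exp (if A x then l else 0)) ^ m := by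
    rw [← sum_prod (f := fun x => μ x * Real.exp (if A x then l else 0)) m]
  rw [hs]
  have hE : ∑ x, μ x * Real.exp (if A x then l else 0) = 1 + p * (Real.exp l - 1) := by
    have : ∀ x, μ x * Real.exp (if A x then l else 0) =
        μ x + (if A x then μ x else 0) * (Real.exp l - 1) := by
      intro x
      by_cases hA : A x
      · simp only [hA, if_true]; ring
      · simp [hA]
    simp_rw [this]
    rw [Finset.sum_add_distrib, ← Finset.sum_mul, h1, hp]
  rw [hE]
  have hle : 1 + p * (Real.exp l - 1) ≤ Real.exp (p * (Real.exp l - 1)) := by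
    have := Real.add_one_le_exp (p * (Real.exp l - 1))
    linarith
  have hpos : 0 ≤ 1 + p * (Real.exp l - 1) := by
    rw [← hE]
    exact Finset.sum_nonneg (fun x _ => mul_nonneg (hμ x) (Real.exp_pos _).le)
  calc (1 + p * (Real.exp l - 1)) ^ m * Real.exp (-c)
      ≤ (Real.exp (p * (Real.exp l - 1))) ^ m * Real.exp (-c) := by
        apply mul_le_mul_of_nonneg_right _ (Real.exp_pos _).le
        exact pow_le_pow_left₀ hpos hle m
    _ = Real.exp (m * (p * (Real.exp l - 1)) - c) := by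
        rw [← Real.exp_nat_mul, ← Real.exp_add]
        ring_nf

theorem exp_sub_one_le {t : ℝ} (h : |t| ≤ 1) : Real.exp t - 1 ≤ t + t ^ 2 := by
  have := Real.abs_exp_sub_one_sub_id_le h
  rw [abs_le] at this
  linarith [this.2]

/-- Two-sided multiplicative Chernoff bound. -/
theorem chernoff {μ : Ω → ℝ} (hμ : ∀ x, 0 ≤ μ x) (h1 : ∑ x, μ x = 1) (m : ℕ)
    (A : Ω → Prop) [DecidablePred A] (p a : ℝ) (hp : ∑ x, (if A x then μ x else 0) = p)
    (ha0 : 0 ≤ a) (ha1 : a ≤ 1) :
    1 - 2 * Real.exp (-(m * p * a ^ 2 / 4)) ≤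
    prob μ m (fun ω => (1 - a) * (m * p) ≤ ((univ.filter (fun i => A (ω i))).card : ℝ) ∧
      ((univ.filter (fun i => A (ω i))).card : ℝ) ≤ (1 + a) * (m * p)) := by
  classical
  have hp0 : 0 ≤ p := by
    rw [← hp]
    exact Finset.sum_nonneg (fun x _ => by split_ifs; exacts [hμ x, le_rfl])
  rcases ha0.eq_or_lt with ha | ha
  · have := prob_nonneg hμ m (fun ω => (1 - a) * (m * p) ≤
      ((univ.filter (fun i => A (ω i))).card : ℝ) ∧
      ((univ.filter (fun i => A (ω i))).card : ℝ) ≤ (1 + a) * (m * p))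
    rw [← ha] at this ⊢
    have h2 : Real.exp (-(m * p * (0:ℝ) ^ 2 / 4)) = 1 := by simp
    rw [h2]
    linarith
  rw [prob_compl h1]
  have hup := prob_le_exp hμ h1 m A p (a / 2) ((a / 2) * ((1 + a) * (m * p))) hp
  have hlo := prob_le_exp hμ h1 m A p (-(a / 2)) (-(a / 2) * ((1 - a) * (m * p))) hp
  have hmono : prob μ m (fun ω => ¬ ((1 - a) * (m * p) ≤
      ((univ.filter (fun i => A (ω i))).card : ℝ) ∧
      ((univ.filter (fun i => A (ω i))).card : ℝ) ≤ (1 + a) * (m * p))) ≤
      prob μ m (fun ω => (a / 2) * ((1 + a) * (m * p)) ≤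
        (a / 2) * ((univ.filter (fun i => A (ω i))).card : ℝ)) +
      prob μ m (fun ω => -(a / 2) * ((1 - a) * (m * p)) ≤
        -(a / 2) * ((univ.filter (fun i => A (ω i))).card : ℝ)) := by
    refine (prob_mono hμ m ?_).trans (prob_or_le hμ m _ _)
    intro ω h
    rw [not_and_or, not_le, not_le] at h
    rcases h with h | h
    · right; nlinarith
    · left; nlinarith
  have hmp : 0 ≤ (m : ℝ) * p := by positivity
  have e1 : (m : ℝ) * (p * (Real.exp (a / 2) - 1)) - (a / 2) * ((1 + a) * (m * p)) ≤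
      -(m * p * a ^ 2 / 4) := by
    have h := exp_sub_one_le (t := a / 2) (by rw [abs_of_pos (by linarith)]; linarith)
    have h' : (m : ℝ) * (p * (Real.exp (a / 2) - 1)) ≤ (m * p) * (a / 2 + (a / 2) ^ 2) := by
      rw [← mul_assoc]
      exact mul_le_mul_of_nonneg_left h hmp
    nlinarith
  have e2 : (m : ℝ) * (p * (Real.exp (-(a / 2)) - 1)) - -(a / 2) * ((1 - a) * (m * p)) ≤
      -(m * p * a ^ 2 / 4) := by
    have h := exp_sub_one_le (t := -(a / 2)) (by rw [abs_neg, abs_of_pos (by linarith)]; linarith)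
    have h' : (m : ℝ) * (p * (Real.exp (-(a / 2)) - 1)) ≤
        (m * p) * (-(a / 2) + (-(a / 2)) ^ 2) := by
      rw [← mul_assoc]
      exact mul_le_mul_of_nonneg_left h hmp
    nlinarith
  have f1 := Real.exp_le_exp.2 e1
  have f2 := Real.exp_le_exp.2 e2
  linarith

end Vale.Agent.H26.Chernoff
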