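import Mathlib

open Set

namespace Vale.Agent.H26.Exchange

variable {α : Type*} {M M₁ M₂ : Matroid α} {X Y : Set α} {e f e₁ e₂ f₁ f₂ : α}

/-- Two simultaneous exchanges: if `Y - f₁ + e₁` and `Y - f₂ + e₂` are bases and
`Y - f₂ + e₁` is not, then `Y - f₁ - f₂ + e₁ + e₂` is a base. -/
theorem two_exchange (hY : M.IsBase Y) (he₁ : e₁ ∈ M.E) (he₁Y : e₁ ∉ Y) (he₂ : e₂ ∈ M.E)
    (hf₂ : f₂ ∈ Y) (hff : f₁ ≠ f₂)
    (h11 : M.IsBase (insert e₁ (Y \ {f₁}))) (h22 : M.IsBase (insert e₂ (Y \ {f₂})))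
    (he₂Y : e₂ ∉ Y)
    (h12 : ¬ M.IsBase (insert e₁ (Y \ {f₂}))) :
    M.IsBase (insert e₂ (insert e₁ (Y \ {f₁}) \ {f₂})) := by
  have hf₂' : f₂ ∈ insert e₁ (Y \ {f₁}) := by
    right; exact ⟨hf₂, by simpa using hff.symm⟩
  apply h11.exchange_base_of_notMem_closure hf₂' _ he₂
  intro hcl
  have h1 : e₁ ∈ M.closure (Y \ {f₂}) := by
    by_contra hne
    exact h12 (hY.exchange_base_of_notMem_closure hf₂ hne he₁)
  have h2 : M.closure (insert e₁ (Y \ {f₁}) \ {f₂}) ⊆ M.closure (Y \ {f₂}) := by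
    apply M.closure_subset_closure_of_subset_closure
    rintro x ⟨hx, hxf⟩
    rcases hx with rfl | hx
    · exact h1
    · exact M.mem_closure_of_mem ⟨hx.1, hxf⟩ (sdiff_subset.trans hY.subset_ground)
  have h3 : e₂ ∈ M.closure (Y \ {f₂}) := h2 hcl
  have h4 : M.Indep (insert e₂ (Y \ {f₂})) := h22.indep
  have h5 : e₂ ∉ Y \ {f₂} := fun h => he₂Y h.1
  exact (((hY.indep.sdiff {f₂}).notMem_closure_iff he₂).2 ⟨h4, h5⟩) h3

/-- The elements `f` of `Y \ X` for which `Y - f + e` is a base. -/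
def nbr (M : Matroid α) (X Y : Set α) (e : α) : Set α :=
  {f | f ∈ Y \ X ∧ M.IsBase (insert e (Y \ {f}))}

theorem mem_closure_nbr (hY : M.IsBase Y) (he : e ∈ M.E) (heY : e ∉ Y) :
    e ∈ M.closure ((X ∩ Y) ∪ nbr M X Y e) := by
  have hecl : e ∈ M.closure Y := by rw [hY.closure_eq]; exact he
  have hC : M.IsCircuit (M.fundCircuit e Y) := hY.fundCircuit_isCircuit he heY
  have h1 := hC.subset_closure_sdiff_singleton e (M.mem_fundCircuit e Y)
  refine M.closure_subset_closure ?_ h1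
  rintro x ⟨hx, hxe⟩
  have hxe' : x ≠ e := by simpa using hxe
  have hxY : x ∈ Y := by
    have := M.fundCircuit_subset_insert e Y hx
    rcases this with rfl | h
    · exact absurd rfl hxe'
    · exact h
  by_cases hxX : x ∈ X
  · left; exact ⟨hxX, hxY⟩
  · right
    refine ⟨⟨hxY, hxX⟩, ?_⟩
    have h2 := (hY.indep.mem_fundCircuit_iff hecl heY).1 hx
    have h3 := hY.exchange_isBase_of_indep' hxY heY h2
    rwa [← insert_sdiff_singleton_comm hxe'.symm] at h3

/-- Hall's condition for the exchange graph between `X \ Y` and `Y \ X`. -/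
theorem hall [Finite α] (hX : M.IsBase X) (hY : M.IsBase Y) {A : Set α} (hA : A ⊆ X \ Y) :
    A.ncard ≤ (⋃ e ∈ A, nbr M X Y e).ncard := by
  classical
  set F : Set α := ⋃ e ∈ A, nbr M X Y e with hF
  have hFY : F ⊆ Y \ X := by
    intro f hf
    simp only [hF, mem_iUnion] at hf
    obtain ⟨e, -, h⟩ := hf
    exact h.1
  have hI : M.Indep ((X ∩ Y) ∪ F) := hY.indep.subset (by
    rintro x (hx | hx)
    · exact hx.2
    · exact (hFY hx).1)
  have hJ : M.Indep ((X ∩ Y) ∪ A) := hX.indep.subset (by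
    rintro x (hx | hx)
    · exact hx.1
    · exact (hA hx).1)
  have hsub : (X ∩ Y) ∪ A ⊆ M.closure ((X ∩ Y) ∪ F) := by
    rintro x (hx | hx)
    · exact M.mem_closure_of_mem (Or.inl hx) hI.subset_ground
    · have h1 := mem_closure_nbr (X := X) hY (hX.subset_ground (hA hx).1) (hA hx).2
      refine M.closure_subset_closure ?_ h1
      apply union_subset_union_right
      intro f hf
      simp only [hF, mem_iUnion]
      exact ⟨x, hx, hf⟩
  have hle : ((X ∩ Y) ∪ A).encard ≤ ((X ∩ Y) ∪ F).encard := by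
    calc ((X ∩ Y) ∪ A).encard ≤ M.eRk (M.closure ((X ∩ Y) ∪ F)) := hJ.encard_le_eRk_of_subset hsub
      _ = M.eRk ((X ∩ Y) ∪ F) := M.eRk_closure_eq _
      _ = ((X ∩ Y) ∪ F).encard := hI.eRk_eq_encard
  have hd1 : Disjoint (X ∩ Y) A := by
    rw [Set.disjoint_left]; intro x hx hxA; exact (hA hxA).2 hx.2
  have hd2 : Disjoint (X ∩ Y) F := by
    rw [Set.disjoint_left]; intro x hx hxF; exact (hFY hxF).2 hx.1
  have hle' : ((X ∩ Y) ∪ A).ncard ≤ ((X ∩ Y) ∪ F).ncard := by
    rw [← Nat.cast_le (α := ℕ∞), Set.Finite.cast_ncard_eq (Set.toFinite _),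
      Set.Finite.cast_ncard_eq (Set.toFinite _)]
    exact hle
  rw [ncard_union_eq hd1, ncard_union_eq hd2] at hle'
  omega

/-- There is an injection `φ` of `X \ Y` into `Y \ X` with every `Y - φ e + e` a base. -/
theorem exists_matching [Finite α] (hX : M.IsBase X) (hY : M.IsBase Y) :
    ∃ φ : (X \ Y : Set α) → α, Function.Injective φ ∧
      ∀ e : (X \ Y : Set α), φ e ∈ nbr M X Y (e : α) := by
  classical
  have := Fintype.ofFinite α
  let t : (X \ Y : Set α) → Finset α := fun e => (nbr M X Y (e : α)).toFinset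
  have key : ∀ s : Finset (X \ Y : Set α), s.card ≤ (s.biUnion t).card := by
    intro s
    have h := hall (A := (fun x : (X \ Y : Set α) => (x : α)) '' (s : Set (X \ Y : Set α))) hX hY
      (by rintro x ⟨y, -, rfl⟩; exact y.2)
    rw [ncard_image_of_injective _ Subtype.val_injective, ncard_coe_finset] at h
    refine h.trans (le_of_eq ?_)
    rw [← ncard_coe_finset]
    congr 1
    ext f
    simp only [t, Finset.coe_biUnion, mem_iUnion, Set.coe_toFinset, Finset.mem_coe, mem_image,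
      exists_prop]
    constructor
    · rintro ⟨x, ⟨y, hy, rfl⟩, hf⟩
      exact ⟨y, hy, hf⟩
    · rintro ⟨y, hy, hf⟩
      exact ⟨y, ⟨y, hy, rfl⟩, hf⟩
  obtain ⟨φ, hinj, hφ⟩ := (Finset.all_card_le_biUnion_card_iff_exists_injective t).1 key
  exact ⟨φ, hinj, fun e => by simpa [t] using hφ e⟩

/-- In a matroid of rank `r` all of whose sets of size at most `r - k` are independent, for every
base `Y` and every `e ∉ Y`, all but at most `k` of the exchanges `Y - f + e` give bases. -/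
theorem bad_ncard_le [Finite α] {r k : ℕ} (hY : M.IsBase Y) (hr : Y.ncard = r)
    (hk : ∀ I ⊆ M.E, I.ncard + k ≤ r → M.Indep I) (he : e ∈ M.E) (heY : e ∉ Y) :
    {f | f ∈ Y ∧ ¬ M.IsBase (insert e (Y \ {f}))}.ncard ≤ k := by
  classical
  have hecl : e ∈ M.closure Y := by rw [hY.closure_eq]; exact he
  set C := M.fundCircuit e Y with hCdef
  have hC : M.IsCircuit C := hY.fundCircuit_isCircuit he heY
  have heC : e ∈ C := M.mem_fundCircuit e Y
  have hCcard : r < C.ncard + k := by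
    by_contra hlt
    push Not at hlt
    exact hC.not_indep (hk C hC.subset_ground hlt)
  have hsub : {f | f ∈ Y ∧ ¬ M.IsBase (insert e (Y \ {f}))} ⊆ Y \ (C \ {e}) := by
    rintro f ⟨hfY, hf⟩
    refine ⟨hfY, fun hfC => hf ?_⟩
    have hfe : f ≠ e := by simpa using hfC.2
    have h2 := (hY.indep.mem_fundCircuit_iff hecl heY).1 hfC.1
    have h3 := hY.exchange_isBase_of_indep' hfY heY h2
    rwa [← insert_sdiff_singleton_comm hfe.symm] at h3
  have hCY : C \ {e} ⊆ Y := by
    rintro x ⟨hx, hxe⟩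
    rcases M.fundCircuit_subset_insert e Y hx with rfl | h
    · exact absurd rfl hxe
    · exact h
  have h1 := ncard_le_ncard hsub (Set.toFinite _)
  rw [ncard_sdiff hCY (Set.toFinite _), ncard_sdiff_singleton_of_mem heC] at h1
  omega

end Vale.Agent.H26.Exchange
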