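import Mathlib
import Vale.Agent.H26.Exchange

open Set

namespace Vale.Agent.H26.Paving

open Vale.Agent.H26.Exchange

variable {α : Type*} {M₁ M₂ : Matroid α} {X : Set α}

theorem pair_of_small_out {S : Type*} [Fintype S] [DecidableEq S] {k : ℕ} (A : S → Finset S)
    (hA : ∀ e, (A e).card ≤ k) (hself : ∀ e, e ∈ A e) (hd : 2 * k ≤ Fintype.card S)
    (hne : Nonempty S) :
    ∃ e₁ e₂ : S, e₁ ≠ e₂ ∧ e₂ ∉ A e₁ ∧ e₁ ∉ A e₂ := by
  classical
  by_contra hcon
  push Not at hcon
  set R : Finset (S × S) := Finset.univ.filter (fun p => p.2 ∈ A p.1) with hR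
  set R' : Finset (S × S) := Finset.univ.filter (fun p => p.1 ∈ A p.2) with hR'
  have hcardR : R.card = ∑ e, (A e).card := by
    rw [hR]
    rw [← Finset.card_sigma]
    apply Finset.card_bij (fun (p : S × S) _ => (⟨p.1, p.2⟩ : Σ _ : S, S))
    · intro p hp
      simpa using hp
    · rintro ⟨a, b⟩ _ ⟨c, d⟩ _ h
      simpa using h
    · rintro ⟨a, b⟩ h
      exact ⟨(a, b), by simpa using h, rfl⟩
  have hcardR' : R'.card = R.card := by
    apply Finset.card_bij (fun (p : S × S) _ => (p.2, p.1))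
    · intro p hp
      simpa [hR, hR'] using hp
    · rintro ⟨a, b⟩ _ ⟨c, d⟩ _ h
      simp only [Prod.mk.injEq] at h ⊢
      exact ⟨h.2, h.1⟩
    · rintro ⟨a, b⟩ h
      exact ⟨(b, a), by simpa [hR, hR'] using h, rfl⟩
  have hun : R ∪ R' = Finset.univ := by
    ext ⟨a, b⟩
    simp only [hR, hR', Finset.mem_union, Finset.mem_filter, Finset.mem_univ, true_and, iff_true]
    by_cases hab : a = b
    · subst hab; left; exact hself a
    · by_cases h : b ∈ A a
      · left; exact h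
      · right; exact hcon a b hab h
  have hin : (Finset.univ : Finset S).card ≤ (R ∩ R').card := by
    apply Finset.card_le_card_of_injOn (fun e => (e, e))
    · intro e _
      simp [hR, hR', hself e]
    · intro a _ b _ h
      simpa using h
  have h1 := Finset.card_union_add_card_inter R R'
  rw [hun, hcardR', hcardR] at h1
  have h2 : ∑ e, (A e).card ≤ Fintype.card S * k := by
    calc ∑ e, (A e).card ≤ ∑ _e : S, k := Finset.sum_le_sum (fun e _ => hA e)
      _ = Fintype.card S * k := by simp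
  have h3 : (Finset.univ : Finset (S × S)).card = Fintype.card S * Fintype.card S := by
    simp
  have h4 : 0 < Fintype.card S := Fintype.card_pos
  rw [h3] at h1
  rw [Finset.card_univ] at hin
  nlinarith

theorem exists_common_near [Finite α] {r k : ℕ} (hE : M₁.E = M₂.E)
    (hr : ∀ B, M₁.IsBase B → B.ncard = r) (hk1 : 1 ≤ k)
    (hk : ∀ I ⊆ M₁.E, I.ncard + k ≤ r → M₁.Indep I)
    (hN : ∃ B, M₁.IsBase B ∧ M₂.IsBase B) (hX : M₂.IsBase X) :
    ∃ Y, M₁.IsBase Y ∧ M₂.IsBase Y ∧ (X \ Y).ncard < 2 * k := by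
  classical
  let P : ℕ → Prop := fun d => ∃ Y, M₁.IsBase Y ∧ M₂.IsBase Y ∧ (X \ Y).ncard = d
  have hP : ∃ d, P d := by
    obtain ⟨B, h1, h2⟩ := hN
    exact ⟨_, B, h1, h2, rfl⟩
  obtain ⟨Y, hY1, hY2, hYd⟩ := Nat.find_spec hP
  have hmin : ∀ Z, M₁.IsBase Z → M₂.IsBase Z → (X \ Y).ncard ≤ (X \ Z).ncard := by
    intro Z h1 h2
    rw [hYd]
    exact Nat.find_min' hP ⟨Z, h1, h2, rfl⟩
  refine ⟨Y, hY1, hY2, ?_⟩
  by_contra hd
  push Not at hd
  -- the matching
  obtain ⟨φ, hinj, hφ⟩ := exists_matching hX hY2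
  -- single exchanges towards `X` are never common bases
  have hsingle : ∀ e ∈ X \ Y, ∀ f ∈ nbr M₂ X Y e, ¬ M₁.IsBase (insert e (Y \ {f})) := by
    intro e he f hf hb
    have h1 := hmin _ hb hf.2
    have h2 : X \ insert e (Y \ {f}) = (X \ Y) \ {e} := by
      ext x
      simp only [mem_sdiff, mem_insert_iff, mem_singleton_iff, not_or, not_and, not_not]
      constructor
      · rintro ⟨hx, hxe, hxf⟩
        refine ⟨⟨hx, fun hxY => ?_⟩, hxe⟩
        have : x = f := hxf hxY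
        exact hf.1.2 (this ▸ hx)
      · rintro ⟨⟨hx, hxY⟩, hxe⟩
        exact ⟨hx, hxe, fun h => absurd h hxY⟩
    rw [h2, ncard_sdiff_singleton_of_mem he] at h1
    have h3 : 0 < (X \ Y).ncard := by
      rw [ncard_pos (Set.toFinite _)]; exact ⟨e, he⟩
    omega
  have := Fintype.ofFinite α
  let S := (X \ Y : Set α)
  have hScard : Fintype.card S = (X \ Y).ncard := by
    rw [← Nat.card_eq_fintype_card]; rfl
  let A : S → Finset S := fun e =>
    Finset.univ.filter (fun e' : S => ¬ M₁.IsBase (insert (e : α) (Y \ {φ e'})))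
  have hA : ∀ e, (A e).card ≤ k := by
    intro e
    have he1 : (e : α) ∈ M₁.E := by rw [hE]; exact hX.subset_ground e.2.1
    have hb := bad_ncard_le (k := k) hY1 (hr Y hY1) hk he1 e.2.2
    refine le_trans ?_ hb
    rw [← ncard_coe_finset]
    rw [← ncard_image_of_injective _ hinj]
    apply ncard_le_ncard _ (Set.toFinite _)
    rintro f ⟨e', he', rfl⟩
    refine ⟨(hφ e').1.1, ?_⟩
    have he'' : e' ∈ A e := he'
    simpa only [A, Finset.mem_filter, Finset.mem_univ, true_and] using he''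
  have hself : ∀ e, e ∈ A e := by
    intro e
    simp only [A, Finset.mem_filter, Finset.mem_univ, true_and]
    exact hsingle e e.2 _ (hφ e)
  have hne : Nonempty S := by
    rw [← Fintype.card_pos_iff, hScard]; omega
  obtain ⟨e₁, e₂, hee, h21, h12⟩ := pair_of_small_out A hA hself (by rw [hScard]; exact hd) hne
  have hee' : (e₁ : α) ≠ e₂ := fun h => hee (Subtype.ext h)
  set f₁ := φ e₁ with hf₁
  set f₂ := φ e₂ with hf₂
  have hff : f₁ ≠ f₂ := fun h => hee (hinj h)
  have hE1 : (e₁ : α) ∈ M₂.E := hX.subset_ground e₁.2.1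
  have hE2 : (e₂ : α) ∈ M₂.E := hX.subset_ground e₂.2.1
  have hf1Y : f₁ ∈ Y := (hφ e₁).1.1
  have hf2Y : f₂ ∈ Y := (hφ e₂).1.1
  have hb12 : M₁.IsBase (insert (e₁ : α) (Y \ {f₂})) := by
    by_contra hc
    exact h21 (by simpa [A] using hc)
  have hb21 : M₁.IsBase (insert (e₂ : α) (Y \ {f₁})) := by
    by_contra hc
    exact h12 (by simpa [A] using hc)
  have hc2 : M₂.IsBase (insert (e₂ : α) (insert (e₁ : α) (Y \ {f₁}) \ {f₂})) := by
    apply two_exchange hY2 hE1 e₁.2.2 hE2 hf2Y hff (hφ e₁).2 (hφ e₂).2 e₂.2.2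
    intro hc
    exact hsingle e₁ e₁.2 f₂ ⟨(hφ e₂).1, hc⟩ hb12
  have hc1 : M₁.IsBase (insert (e₂ : α) (insert (e₁ : α) (Y \ {f₂}) \ {f₁})) := by
    apply two_exchange hY1 (by rw [hE]; exact hE1) e₁.2.2 (by rw [hE]; exact hE2) hf1Y hff.symm
      hb12 hb21 e₂.2.2
    exact hsingle e₁ e₁.2 f₁ (hφ e₁)
  have heq : insert (e₂ : α) (insert (e₁ : α) (Y \ {f₂}) \ {f₁}) =
      insert (e₂ : α) (insert (e₁ : α) (Y \ {f₁}) \ {f₂}) := by
    have h1 : (e₁ : α) ≠ f₁ := fun h => e₁.2.2 (h ▸ hf1Y)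
    have h2 : (e₁ : α) ≠ f₂ := fun h => e₁.2.2 (h ▸ hf2Y)
    ext x
    simp only [mem_insert_iff, mem_sdiff, mem_singleton_iff]
    constructor
    · rintro (h | ⟨h | ⟨h, h'⟩, h''⟩)
      · left; exact h
      · right; subst h; exact ⟨Or.inl rfl, h2⟩
      · right; exact ⟨Or.inr ⟨h, h''⟩, h'⟩
    · rintro (h | ⟨h | ⟨h, h'⟩, h''⟩)
      · left; exact h
      · right; subst h; exact ⟨Or.inl rfl, h1⟩
      · right; exact ⟨Or.inr ⟨h, h''⟩, h'⟩
  rw [heq] at hc1
  have h1 := hmin _ hc1 hc2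
  have h2 : X \ insert (e₂ : α) (insert (e₁ : α) (Y \ {f₁}) \ {f₂}) ⊆ (X \ Y) \ {(e₁ : α)} := by
    intro x
    simp only [mem_sdiff, mem_insert_iff, mem_singleton_iff, not_or, not_and, not_not]
    rintro ⟨hx, hx2, hx3⟩
    have hf1X : f₁ ∉ X := (hφ e₁).1.2
    have hf2X : f₂ ∉ X := (hφ e₂).1.2
    have hxf1 : x ≠ f₁ := fun h => hf1X (h ▸ hx)
    have hxf2 : x ≠ f₂ := fun h => hf2X (h ▸ hx)
    refine ⟨⟨hx, fun hxY => hxf2 (hx3 (Or.inr ⟨hxY, hxf1⟩))⟩, fun h => hxf2 (hx3 (Or.inl h))⟩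
  have h3 := ncard_le_ncard h2 (Set.toFinite _)
  rw [ncard_sdiff_singleton_of_mem e₁.2] at h3
  have h4 : 0 < (X \ Y).ncard := by
    rw [ncard_pos (Set.toFinite _)]; exact ⟨e₁, e₁.2⟩
  have h5 : S.ncard = (X \ Y).ncard := rfl
  have h6 : (X \ insert (e₂ : α) (insert (e₁ : α) (Y \ {f₁}) \ {f₂})).ncard ≤
    (X \ Y).ncard - 1 := h3
  have h7 := h1.trans h6
  omega

/-- The number of `r`-subsets of `Fin n` meeting the complement of a fixed `r`-set `Y` in fewer
than `t` elements. -/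
theorem ball_card_le {n r t : ℕ} (Y : Finset (Fin n)) (hY : Y.card = r) :
    (Finset.univ.filter (fun X : Finset (Fin n) => X.card = r ∧ (X \ Y).card < t)).card ≤
      ∑ i ∈ Finset.range t, r.choose i * (n - r).choose i := by
  classical
  have hsub : (Finset.univ.filter (fun X : Finset (Fin n) => X.card = r ∧ (X \ Y).card < t)) ⊆
      (Finset.range t).biUnion (fun i =>
        ((Y.powersetCard i) ×ˢ (Yᶜ.powersetCard i)).image (fun p => (Y \ p.1) ∪ p.2)) := by
    intro X hX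
    simp only [Finset.mem_filter, Finset.mem_univ, true_and] at hX
    simp only [Finset.mem_biUnion, Finset.mem_range, Finset.mem_image, Finset.mem_product,
      Finset.mem_powersetCard, Prod.exists]
    refine ⟨(X \ Y).card, hX.2, Y \ X, X \ Y, ⟨⟨Finset.sdiff_subset, ?_⟩, ?_, rfl⟩, ?_⟩
    · have h1 := Finset.card_sdiff_add_card_inter X Y
      have h2 := Finset.card_sdiff_add_card_inter Y X
      rw [Finset.inter_comm] at h2
      omega
    · intro x hx
      simp only [Finset.mem_sdiff] at hx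
      simpa using hx.2
    · ext x
      simp only [Finset.mem_union, Finset.mem_sdiff, not_and, not_not]
      tauto
  refine (Finset.card_le_card hsub).trans (Finset.card_biUnion_le.trans ?_)
  apply Finset.sum_le_sum
  intro i _
  refine Finset.card_image_le.trans ?_
  rw [Finset.card_product, Finset.card_powersetCard, Finset.card_powersetCard, hY,
    Finset.card_compl, Fintype.card_fin, hY]

end Vale.Agent.H26.Paving
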